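import Crest.Agent.R55.Defs

set_option autoImplicit false
open Finset

namespace Crest.Agent.R55

variable {Y : Type*} [Fintype Y] [DecidableEq Y]


namespace BernAux

lemma wt_eq (p : Y → ℝ) (w : Finset Y) :
    wt p w = ∏ x, (if x ∈ w then p x else 1 - p x) := by
  rw [Finset.prod_ite]
  unfold wt
  congr 1
  · congr 1; ext x; simp
  · congr 1; ext x; simp

lemma Ex_prod (p u v : Y → ℝ) :
    Ex p (fun w => ∏ x, (if x ∈ w then u x else v x)) = ∏ x, (p x * u x + (1 - p x) * v x) := by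
  rw [Fintype.prod_add]
  unfold Ex
  refine Finset.sum_congr rfl fun w _ => ?_
  rw [wt_eq, ← Finset.prod_mul_distrib]
  have : ∀ x, (if x ∈ w then p x else 1 - p x) * (if x ∈ w then u x else v x) =
      if x ∈ w then p x * u x else (1 - p x) * v x := by
    intro x; split_ifs <;> rfl
  simp_rw [this]
  rw [Finset.prod_ite]
  congr 1
  · congr 1; ext x; simp
  · congr 1; ext x; simp

lemma ind_union (w T y : Finset Y) :
    ind (w ∪ T = y) = ∏ x, (if x ∈ w then ind (x ∈ y) else ind (x ∈ T ↔ x ∈ y)) := by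
  by_cases h : w ∪ T = y
  · rw [ind_true h]
    symm
    refine Finset.prod_eq_one fun x _ => ?_
    subst h
    split_ifs with hx
    · exact ind_true (by simp [hx])
    · exact ind_true (by simp [hx])
  · rw [ind_false h]
    symm
    have : ∃ x, ¬ (x ∈ w ∪ T ↔ x ∈ y) := by
      by_contra hc
      push Not at hc
      exact h (Finset.ext hc)
    obtain ⟨x, hx⟩ := this
    refine Finset.prod_eq_zero (Finset.mem_univ x) ?_
    split_ifs with hw
    · exact ind_false (by simpa [hw] using hx)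
    · exact ind_false (by simpa [hw] using hx)

lemma Ex_kernel (p : Y → ℝ) (T : Finset Y) (g : Finset Y → ℝ) :
    Ex p (fun w => g (w ∪ T)) =
      ∑ y : Finset Y, (∏ x, (p x * ind (x ∈ y) + (1 - p x) * ind (x ∈ T ↔ x ∈ y))) * g y := by
  have h1 : ∀ w : Finset Y, g (w ∪ T) = ∑ y : Finset Y, ind (w ∪ T = y) * g y := by
    intro w
    rw [Finset.sum_eq_single (w ∪ T)]
    · rw [ind_true rfl, one_mul]
    · intro y _ hy; rw [ind_false (Ne.symm hy), zero_mul]
    · intro h; exact absurd (Finset.mem_univ _) h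
  simp_rw [h1, ← Ex_prod, ← ind_union]
  unfold Ex
  simp_rw [Finset.mul_sum, Finset.sum_mul]
  rw [Finset.sum_comm]
  refine Finset.sum_congr rfl fun y _ => Finset.sum_congr rfl fun w _ => by ring

end BernAux

lemma wt_nonneg {p : Y → ℝ} (h0 : ∀ x, 0 ≤ p x) (h1 : ∀ x, p x ≤ 1) (w : Finset Y) :
    0 ≤ wt p w := by
  unfold wt
  exact mul_nonneg (Finset.prod_nonneg fun x _ => h0 x)
    (Finset.prod_nonneg fun x _ => sub_nonneg.2 (h1 x))

lemma Ex_const (p : Y → ℝ) (c : ℝ) : Ex p (fun _ => c) = c := by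
  have h := BernAux.Ex_prod p (fun _ => 1) (fun _ => 1)
  simp only [ite_self, Finset.prod_const_one, mul_one, add_sub_cancel] at h
  unfold Ex at h ⊢
  simp only [mul_one] at h
  rw [← Finset.sum_mul, h, one_mul]

lemma Ex_mono {p : Y → ℝ} (h0 : ∀ x, 0 ≤ p x) (h1 : ∀ x, p x ≤ 1) {f g : Finset Y → ℝ}
    (h : ∀ w, f w ≤ g w) : Ex p f ≤ Ex p g := by
  unfold Ex
  exact Finset.sum_le_sum fun w _ => mul_le_mul_of_nonneg_left (h w) (wt_nonneg h0 h1 w)

lemma Ex_nonneg {p : Y → ℝ} (h0 : ∀ x, 0 ≤ p x) (h1 : ∀ x, p x ≤ 1) {f : Finset Y → ℝ}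
    (h : ∀ w, 0 ≤ f w) : 0 ≤ Ex p f := by
  unfold Ex
  exact Finset.sum_nonneg fun w _ => mul_nonneg (wt_nonneg h0 h1 w) (h w)

lemma Ex_add (p : Y → ℝ) (f g : Finset Y → ℝ) :
    Ex p (fun w => f w + g w) = Ex p f + Ex p g := by
  unfold Ex
  simp only [mul_add, Finset.sum_add_distrib]

lemma Ex_sub (p : Y → ℝ) (f g : Finset Y → ℝ) :
    Ex p (fun w => f w - g w) = Ex p f - Ex p g := by
  unfold Ex
  simp only [mul_sub, Finset.sum_sub_distrib]

lemma Ex_const_mul (p : Y → ℝ) (c : ℝ) (f : Finset Y → ℝ) :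
    Ex p (fun w => c * f w) = c * Ex p f := by
  unfold Ex
  rw [Finset.mul_sum]
  exact Finset.sum_congr rfl fun w _ => by ring

lemma Ex_mul_const (p : Y → ℝ) (c : ℝ) (f : Finset Y → ℝ) :
    Ex p (fun w => f w * c) = Ex p f * c := by
  unfold Ex
  rw [Finset.sum_mul]
  exact Finset.sum_congr rfl fun w _ => by ring

lemma Ex_sum {ι : Type*} (p : Y → ℝ) (s : Finset ι) (f : ι → Finset Y → ℝ) :
    Ex p (fun w => ∑ i ∈ s, f i w) = ∑ i ∈ s, Ex p (f i) := by
  unfold Ex
  simp only [Finset.mul_sum]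
  rw [Finset.sum_comm]

omit [Fintype Y] [DecidableEq Y] in
lemma ip_pos {p : Y → ℝ} (hp : Pr p) (T : Finset Y) : 0 < ip p T := by
  unfold ip
  exact Finset.prod_pos fun x _ => inv_pos.2 (hp x).1

/-- planting identity -/
lemma plant {p : Y → ℝ} (hp : Pr p) (T : Finset Y) (g : Finset Y → ℝ) :
    Ex p (fun w => g (w ∪ T)) = Ex p (fun y => ip p T * ind (T ⊆ y) * g y) := by
  rw [BernAux.Ex_kernel]
  unfold Ex
  refine Finset.sum_congr rfl fun y _ => ?_
  rw [← mul_assoc]
  congr 1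
  by_cases hT : T ⊆ y
  · rw [ind_true hT, mul_one, BernAux.wt_eq]
    have hip : ip p T = ∏ x, (if x ∈ T then (p x)⁻¹ else 1) := by
      unfold ip
      rw [Finset.prod_ite_mem, Finset.univ_inter]
    rw [hip, ← Finset.prod_mul_distrib]
    refine Finset.prod_congr rfl fun x _ => ?_
    by_cases hxT : x ∈ T
    · have hxy : x ∈ y := hT hxT
      have := (hp x).1.ne'
      rw [ind_true hxy, ind_true (by simp [hxT, hxy]), if_pos hxy, if_pos hxT]
      field_simp
      ring
    · by_cases hxy : x ∈ y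
      · rw [ind_true hxy, ind_false (by simp [hxT, hxy]), if_pos hxy, if_neg hxT]; ring
      · rw [ind_false hxy, ind_true (by simp [hxT, hxy]), if_neg hxy, if_neg hxT]; ring
  · rw [ind_false hT, mul_zero, mul_zero]
    obtain ⟨x, hxT, hxy⟩ := Finset.not_subset.1 hT
    refine Finset.prod_eq_zero (Finset.mem_univ x) ?_
    rw [ind_false hxy, ind_false (by simp [hxT, hxy])]; ring

/-- the union of two independent random sets -/
lemma Ex_union (a b : ℝ) (g : Finset Y → ℝ) :
    Ex (fun _ : Y => a + (1 - a) * b) g =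
      Ex (fun _ : Y => a) (fun w => Ex (fun _ : Y => b) (fun w' => g (w ∪ w'))) := by
  have h1 : ∀ w : Finset Y, Ex (fun _ : Y => b) (fun w' => g (w ∪ w')) =
      ∑ y : Finset Y, (∏ x, (if x ∈ w then ind (x ∈ y)
        else b * ind (x ∈ y) + (1 - b) * ind (x ∉ y))) * g y := by
    intro w
    have : (fun w' => g (w ∪ w')) = fun w' => g (w' ∪ w) := by
      funext w'; rw [Finset.union_comm]
    rw [this, BernAux.Ex_kernel]
    refine Finset.sum_congr rfl fun y _ => ?_
    congr 1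
    refine Finset.prod_congr rfl fun x _ => ?_
    split_ifs with hx
    · rw [ind_congr (show (x ∈ w ↔ x ∈ y) ↔ x ∈ y by simp [hx])]; ring
    · rw [ind_congr (show (x ∈ w ↔ x ∈ y) ↔ x ∉ y by simp [hx])]
  simp_rw [h1]
  rw [Ex_sum]
  simp_rw [Ex_mul_const, BernAux.Ex_prod]
  unfold Ex
  refine Finset.sum_congr rfl fun y _ => ?_
  congr 1
  rw [BernAux.wt_eq]
  refine Finset.prod_congr rfl fun x _ => ?_
  split_ifs with hx
  · rw [ind_true hx, ind_false (not_not.2 hx)]; ring
  · rw [ind_false hx, ind_true hx]; ring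

end Crest.Agent.R55
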