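import Crest.Agent.R55.Defs

set_option autoImplicit false
open Finset

namespace Crest.Agent.R55

variable {G X : Type*} [Group G] [MulAction G X] [Fintype G] [DecidableEq X]

namespace ChainX
open Classical

theorem Gam_succ (nn : X → ℕ) (B : ℕ → Finset X) (r : ℕ) : (Gam nn B (r + 1) : Finset G) =
    (Gam nn B r).filter fun τ => Fx (fun e => r + 1 - nn e) (B r) τ := by
  ext τ
  simp only [Gam, mem_filter, mem_univ, true_and, Nat.forall_lt_succ_right]

theorem exists_B (nn : X → ℕ) {P : ℕ → Finset G → Finset X → Finset X → Prop}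
    (h : ∀ r Γ A, ∃ C, P r Γ A C) :
    ∃ B : ℕ → Finset X, ∀ r, P r (Gam nn B r) ((range r).biUnion B) (B r) := by
  choose nx hnx using h
  let st : ℕ → Finset G × Finset X := fun r => Nat.rec (univ, ∅) (fun r s =>
    (s.1.filter fun τ => Fx (fun e => r + 1 - nn e) (nx r s.1 s.2) τ, nx r s.1 s.2 ∪ s.2)) r
  obtain ⟨B, hB⟩ : ∃ B : ℕ → Finset X, ∀ r, B r = nx r (st r).1 (st r).2 := ⟨_, fun _ => rfl⟩
  have e : ∀ r, Gam nn B r = (st r).1 ∧ (range r).biUnion B = (st r).2 := fun r => by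
    induction r with
    | zero => simp [Gam, st]
    | succ r ih => rw [Gam_succ, range_add_one, biUnion_insert, ih.1, ih.2, hB]; exact ⟨rfl, rfl⟩
  exact ⟨B, fun r => by rw [(e r).1, (e r).2, hB]; exact hnx _ _ _⟩

end ChainX

/-- the price chain -/
theorem exists_chain {H : Finset X} {Q : ℝ} (hQ : 0 < Q) (hH : Sparse G H Q) (nn : X → ℕ)
    (R : ℕ) (hR : 1 ≤ R) :
    ∃ B : ℕ → Finset X, (∀ i, B i ⊆ H) ∧ (∀ m i, m ≠ i → Disjoint (B m) (B i)) ∧
      (∀ e ∈ H, ∃ i < R, e ∈ B i) ∧ (∀ i < R, ∀ J ⊆ B i, Closed G Q nn B i J) ∧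
      ∀ i, i + 1 < R → ((B i).card : ℝ) ≤
        ∑ m ∈ range (i + 1), ∑ e ∈ B m, (4 : ℝ) ^ (m + 1) / 4 ^ nn e := by
  classical
  obtain ⟨q, hq⟩ : ∃ q : ℕ → X → ℝ, q = fun i e =>
    Q * Real.exp 1 * Real.exp (-(4 ^ i / 4 ^ nn e)) := ⟨_, rfl⟩
  have q0 : ∀ i (C : Finset X), 0 < ∏ e ∈ C, q i e := fun i C =>
    prod_pos fun e _ => by rw [hq]; positivity
  obtain ⟨N, hN⟩ : ∃ N : ℕ → Finset G → Finset X → ℝ, ∀ r Γ C, N r Γ C =
    ((Γ.filter fun τ => Fx (fun e => r + 1 - nn e) C τ).card : ℝ) := ⟨_, fun _ _ _ => rfl⟩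
  obtain ⟨B, hB⟩ := ChainX.exists_B (G := G) nn (P := fun r Γ A C => C ⊆ H \ A ∧
      (r + 1 = R → C = H \ A) ∧ (r + 1 < R → ∀ D ⊆ H \ A,
        N r Γ D / ∏ e ∈ D, q (r + 1) e ≤ N r Γ C / ∏ e ∈ C, q (r + 1) e)) fun r Γ A => by
    by_cases a : r + 1 < R
    · obtain ⟨C, h1, h2⟩ := exists_max_image (H \ A).powerset
        (fun C => N r Γ C / ∏ e ∈ C, q (r + 1) e) (powerset_nonempty _)
      exact ⟨C, mem_powerset.1 h1, fun b => absurd b a.ne, fun _ D hD => h2 D (mem_powerset.2 hD)⟩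
    · exact ⟨_, Subset.rfl, fun _ => rfl, fun b => absurd b a⟩
  have sH : ∀ i, B i ⊆ H := fun i => (hB i).1.trans sdiff_subset
  have dj : ∀ m i, m < i → Disjoint (B m) (B i) := fun m i h =>
    disjoint_sdiff.mono (subset_biUnion_of_mem B (mem_range.2 h)) (hB i).1
  have dj' : ∀ m i, m ≠ i → Disjoint (B m) (B i) := fun m i h =>
    h.lt_or_gt.elim (dj m i) fun h => (dj i m h).symm
  have gs : ∀ r, ((Gam nn B (r + 1) : Finset G).card : ℝ) = N r (Gam nn B r) (B r) := fun r => by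
    rw [ChainX.Gam_succ, hN]
  have g0 : (Gam nn B 0 : Finset G) = univ := by simp [Gam]
  have c2 : ∀ r < R, ∀ J ⊆ H \ (range r).biUnion B,
      N r (Gam nn B r) J ≤ (Gam nn B r : Finset G).card * ∏ e ∈ J, q r e := fun r hr J hJ => by
    rcases r with _ | r
    · rw [g0, hN]
      refine le_trans ?_ ((hH J (hJ.trans sdiff_subset)).trans ?_)
      · refine Nat.cast_le.2 (card_le_card fun τ hτ => ?_)
        simp only [mem_filter, mem_univ, true_and] at hτ ⊢
        exact fun e he => (hτ e he).1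
      · rw [← prod_const]
        refine mul_le_mul_of_nonneg_left (prod_le_prod (fun _ _ => hQ.le) fun e _ => ?_)
          (Nat.cast_nonneg _)
        rw [hq]
        simp only [mul_assoc, ← Real.exp_add]
        refine le_mul_of_one_le_right hQ.le (Real.one_le_exp ?_)
        rw [← sub_eq_add_neg, sub_nonneg, pow_zero, div_le_one (by positivity)]
        exact one_le_pow₀ (by norm_num)
    · rw [range_add_one, biUnion_insert, subset_sdiff, disjoint_union_right] at hJ
      have h1 := (hB r).2.2 hr (B r ∪ J) (union_subset (hB r).1 (subset_sdiff.2 ⟨hJ.1, hJ.2.2⟩))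
      rw [prod_union hJ.2.1.symm, ← div_div, div_le_iff₀ (q0 _ _), div_mul_eq_mul_div,
        div_le_div_iff_of_pos_right (q0 _ _), ← gs] at h1
      refine le_trans ?_ h1
      rw [hN, hN, ChainX.Gam_succ, filter_filter]
      refine Nat.cast_le.2 (card_le_card (monotone_filter_right _ fun τ _ h e he => ?_))
      rcases mem_union.1 he with a | a
      · exact ⟨mem_union_left _ (h.1 e a).1, (h.1 e a).2⟩
      · have := (h.2 e a).2
        exact ⟨mem_union_right _ (h.2 e a).1, by simp only at this ⊢; omega⟩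
  have c3 : ∀ r < R, (Fintype.card G : ℝ) * ∏ m ∈ range r, ∏ e ∈ B m, q (m + 1) e ≤
      (Gam nn B r : Finset G).card := fun r hr => by
    induction r with
    | zero => simp [g0]
    | succ r ih =>
      have h1 := (hB r).2.2 hr ∅ (empty_subset _)
      rw [le_div_iff₀ (q0 _ _), ← gs, prod_empty, div_one, hN] at h1
      simp only [Fx, notMem_empty, false_imp_iff, implies_true, filter_true] at h1
      rw [prod_range_succ, ← mul_assoc]
      exact (mul_le_mul_of_nonneg_right (ih (by omega)) (q0 _ _).le).trans h1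
  refine ⟨B, sH, dj', fun e he => ?_, fun i hi J hJ => ?_, fun i hi => ?_⟩
  · by_cases a : e ∈ (range (R - 1)).biUnion B
    · obtain ⟨i, h1, h2⟩ := mem_biUnion.1 a
      exact ⟨i, (mem_range.1 h1).trans_le (Nat.sub_le _ _), h2⟩
    · exact ⟨R - 1, by omega, ((hB (R - 1)).2.1 (by omega)).symm ▸ mem_sdiff.2 ⟨he, a⟩⟩
  · have := c2 i hi J (hJ.trans (hB i).1)
    rw [hN, hq] at this
    exact this
  · have h1 := (c3 _ hi).trans (le_trans (Nat.cast_le.2 (card_le_card fun τ hτ => by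
      simp only [Gam, mem_filter, mem_univ, true_and, mem_biUnion, mem_range] at hτ ⊢
      exact fun e ⟨m, h1, h2⟩ => ⟨m, h1, (hτ m h1 e h2).1⟩))
      (hH ((range (i + 1)).biUnion B) (biUnion_subset.2 fun m _ => sH m)))
    rw [mul_le_mul_iff_right₀ (by exact_mod_cast Fintype.card_pos),
      card_biUnion fun m _ j _ h => dj' m j h, ← prod_pow_eq_pow_sum, hq] at h1
    simp only [mul_assoc, prod_mul_distrib, prod_const, ← Real.exp_add, ← Real.exp_sum] at h1
    rw [mul_le_iff_le_one_right (prod_pos fun m _ => pow_pos hQ _), Real.exp_le_one_iff] at h1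
    simp only [sum_add_distrib, sum_neg_distrib, sum_const, nsmul_eq_mul, mul_one] at h1
    have h2 := single_le_sum (f := fun m => ((B m).card : ℝ)) (fun m _ => Nat.cast_nonneg _)
      (self_mem_range_succ i)
    linarith

end Crest.Agent.R55
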