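import Crest.Agent.R55.Step

set_option autoImplicit false
open Finset

namespace Crest.Agent.R55

namespace CoreAux

lemma exp_shift {X : Type*} [DecidableEq X] (T : Finset X) (l η : ℝ) (x : X) :
    Real.exp (l - Real.log 128 * ind (x ∉ T)) * (if x ∈ T then 1 else 2 * (64 * η)) =
      Real.exp l * (if x ∈ T then 1 else η) := by
  by_cases hx : x ∈ T
  · rw [ind_false (by simpa using hx), if_pos hx, if_pos hx]; simp
  · rw [ind_true hx, if_neg hx, if_neg hx, mul_one, Real.exp_sub, Real.exp_log (by norm_num)]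
    field_simp
    ring

/-- the induction over levels -/
theorem ind_levels {X Y Ω I : Type*} [Fintype X] [DecidableEq X] [Fintype Y] [DecidableEq Y]
    [Fintype Ω] [Nonempty Ω] [Fintype I] (π : Y → X) (S : ℕ → Ω → Finset Y) (hS : Dj S)
    (φ : Y → ℝ) (hφ : ∀ x, 0 ≤ φ x) (R : ℕ) (Yv : ℕ → ℝ) (hY0 : ∀ i, 0 ≤ Yv i)
    (hY : ∀ i, i + 1 < R → 3 * Yv i ≤ Yv (i + 1)) (ω : ℕ → ℝ) (hω : ∀ i, 0 ≤ ω i)
    (θ : Y → ℝ) (hθ : ∀ y, 0 < θ y) (hθ1 : ∀ x, ∑ y ∈ univ.filter (fun y => π y = x), θ y ≤ 1)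
    {pb δ : ℝ} (hpb : 0 < pb) (hδ : 0 ≤ δ) (J : ℕ) (hJ : 1 ≤ 2 * (64 ^ J * pb))
    (hJ' : ∀ j < J, 64 ^ j * pb ≤ 1)
    (hD : ∀ j < J, ∀ i < R, DB (fun y => 64 ^ j * pb * θ y) φ S i (2 * (δ / 8 ^ j) * Yv i))
    (c : Ω → X → ℝ) (Fam : I → Finset X) {g : ℝ} (hg : 0 ≤ g)
    (hlin : ∀ σ (lam : X → ℝ), ∑ x, c σ x * lam x ≤ g * ∑ ι, ∏ x ∈ Fam ι, Real.exp (lam x) - 1)
    (hmass : ∀ σ (V : Finset Y),
      ∑ x, c σ x * ind (x ∉ V.image π) ≤ ∑ i ∈ range R, ω i * ph φ S V i σ) (n : ℕ) :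
    ∀ j, j + n = J → ∀ (V : Finset Y) (ρ : ℕ → Ω → ℝ), St S V ρ →
      ∃ (P : Ω → ℝ) (A : ℝ), (∀ σ, 0 ≤ P σ) ∧ ∑ σ, P σ = 1 ∧
        (∀ i < R, Dom S ρ P i (12 * (δ / 8 ^ j) * Yv i)) ∧
        A ≤ 14 * (δ / 8 ^ j) * ∑ i ∈ range R, ω i * Yv i ∧
        ∀ lam : X → ℝ, ∑ σ, P σ * ∑ x, c σ x * lam x - Real.log 128 * A ≤
          g * ∑ ι, ∏ x ∈ Fam ι,
            Real.exp (lam x) * (if x ∈ V.image π then 1 else 2 * (64 ^ j * pb)) - 1 := by
  have hXi : 0 ≤ ∑ i ∈ range R, ω i * Yv i :=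
    Finset.sum_nonneg fun i _ => mul_nonneg (hω i) (hY0 i)
  induction n with
  | zero =>
    intro j hj V ρ h
    have hjJ : j = J := by omega
    subst hjJ
    have hδj : 0 ≤ δ / 8 ^ j := by positivity
    have hP0 : ∀ σ, 0 ≤ (Fintype.card Ω : ℝ)⁻¹ * ∏ m ∈ range R, ρ m σ := fun σ =>
      mul_nonneg (by positivity) (Finset.prod_nonneg fun m _ => h.nn m σ)
    have hP1 : ∑ σ, (Fintype.card Ω : ℝ)⁻¹ * ∏ m ∈ range R, ρ m σ = 1 := by
      have := h.av_prod R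
      unfold av at this
      rw [← Finset.mul_sum]; exact this
    refine ⟨fun σ => (Fintype.card Ω : ℝ)⁻¹ * ∏ m ∈ range R, ρ m σ, 0, hP0, hP1, ?_, ?_, ?_⟩
    · intro i hi
      exact h.dom_base hi (mul_nonneg (mul_nonneg (by norm_num) hδj) (hY0 i))
    · exact mul_nonneg (mul_nonneg (by norm_num) hδj) hXi
    · intro lam
      have h1 : ∑ σ, ((Fintype.card Ω : ℝ)⁻¹ * ∏ m ∈ range R, ρ m σ) * ∑ x, c σ x * lam x ≤
          ∑ σ, ((Fintype.card Ω : ℝ)⁻¹ * ∏ m ∈ range R, ρ m σ) *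
            (g * ∑ ι, ∏ x ∈ Fam ι, Real.exp (lam x) - 1) :=
        Finset.sum_le_sum fun σ _ => mul_le_mul_of_nonneg_left (hlin σ lam) (hP0 σ)
      rw [← Finset.sum_mul, hP1, one_mul] at h1
      have h2 : ∑ ι, ∏ x ∈ Fam ι, Real.exp (lam x) ≤ ∑ ι, ∏ x ∈ Fam ι,
          Real.exp (lam x) * (if x ∈ V.image π then 1 else 2 * (64 ^ j * pb)) := by
        refine Finset.sum_le_sum fun ι _ => Finset.prod_le_prod (fun x _ => (Real.exp_pos _).le)
          fun x _ => ?_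
        refine le_mul_of_one_le_right (Real.exp_pos _).le ?_
        split_ifs
        · exact le_rfl
        · exact hJ
      have h3 := mul_le_mul_of_nonneg_left h2 hg
      linarith
  | succ n ih =>
    intro j hj V ρ h
    have hjJ : j < J := by omega
    have hδj : 0 ≤ δ / 8 ^ j := by positivity
    have hη : 0 < 64 ^ j * pb := by positivity
    set η : ℝ := 64 ^ j * pb with hηdef
    have hθle : ∀ y, θ y ≤ 1 := fun y => by
      refine le_trans ?_ (hθ1 (π y))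
      exact Finset.single_le_sum (f := θ) (fun y _ => (hθ y).le) (by simp)
    set p : Y → ℝ := fun y => η * θ y with hpdef
    have hp : Pr p := fun y =>
      ⟨mul_pos hη (hθ y), mul_le_one₀ (hJ' j hjJ) (hθ y).le (hθle y)⟩
    have hp0 : ∀ y, 0 ≤ p y := fun y => (hp y).1.le
    have hp1 : ∀ y, p y ≤ 1 := fun y => (hp y).2
    have IH := fun w : Finset Y =>
      ih (j + 1) (by omega) (V ∪ w) (nrho p S V ρ w) (h.step hp w)
    choose P A hP0 hP1 hdom hA hc using IH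
    have e8 : δ / 8 ^ (j + 1) = δ / 8 ^ j / 8 := by rw [pow_succ, div_mul_eq_div_div]
    have hstep := level_step hp hφ hS h R Yv hY0 hY hδj (hD j hjJ) P hP0 hP1
      (fun w i hi => by rw [← e8]; exact hdom w i hi)
    refine ⟨fun σ => Ex p (fun w => P w σ),
      Ex p (fun w => A w + ∑ σ, P w σ * ∑ x, c σ x * ind (x ∉ (V ∪ w).image π)),
      fun σ => Ex_nonneg hp0 hp1 fun w => hP0 w σ, ?_, fun i hi => (hstep i hi).1, ?_, ?_⟩
    · rw [← Ex_sum p univ (fun σ w => P w σ)]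
      simp only [hP1]
      exact Ex_const p 1
    · have h1 : Ex p (fun w => A w + ∑ σ, P w σ * ∑ x, c σ x * ind (x ∉ (V ∪ w).image π)) ≤
          Ex p (fun w => 14 * (δ / 8 ^ j / 8) * (∑ i ∈ range R, ω i * Yv i) +
            ∑ i ∈ range R, ω i * ∑ σ, P w σ * ph φ S (V ∪ w) i σ) := by
        refine Ex_mono hp0 hp1 fun w => add_le_add (by rw [← e8]; exact hA w) ?_
        calc ∑ σ, P w σ * ∑ x, c σ x * ind (x ∉ (V ∪ w).image π)
            ≤ ∑ σ, P w σ * ∑ i ∈ range R, ω i * ph φ S (V ∪ w) i σ :=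
              Finset.sum_le_sum fun σ _ =>
                mul_le_mul_of_nonneg_left (hmass σ (V ∪ w)) (hP0 w σ)
          _ = ∑ i ∈ range R, ω i * ∑ σ, P w σ * ph φ S (V ∪ w) i σ := by
              simp only [Finset.mul_sum]
              rw [Finset.sum_comm]
              refine Finset.sum_congr rfl fun i _ => Finset.sum_congr rfl fun σ _ => by ring
      rw [Ex_add p (fun _ => 14 * (δ / 8 ^ j / 8) * (∑ i ∈ range R, ω i * Yv i)), Ex_const,
        Ex_sum p (range R) (fun i w => ω i * ∑ σ, P w σ * ph φ S (V ∪ w) i σ)] at h1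
      have h2 : ∑ i ∈ range R, Ex p (fun w => ω i * ∑ σ, P w σ * ph φ S (V ∪ w) i σ) ≤
          ∑ i ∈ range R, 12 * (δ / 8 ^ j) * (ω i * Yv i) := by
        refine Finset.sum_le_sum fun i hi => ?_
        rw [Ex_const_mul]
        have := mul_le_mul_of_nonneg_left (hstep i (Finset.mem_range.1 hi)).2 (hω i)
        linarith
      rw [← Finset.mul_sum] at h2
      have h3 := mul_nonneg hδj hXi
      nlinarith
    · intro lam
      have hw : ∀ w : Finset Y,
          ∑ σ, P w σ * ∑ x, c σ x * lam x - Real.log 128 *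
            (A w + ∑ σ, P w σ * ∑ x, c σ x * ind (x ∉ (V ∪ w).image π)) ≤
          g * ∑ ι, ∏ x ∈ Fam ι,
            Real.exp (lam x) * (if x ∈ (V ∪ w).image π then 1 else η) - 1 := by
        intro w
        have h1 := hc w (fun x => lam x - Real.log 128 * ind (x ∉ (V ∪ w).image π))
        have e1 : (64 : ℝ) ^ (j + 1) * pb = 64 * η := by rw [hηdef]; ring
        rw [e1] at h1
        simp only [exp_shift] at h1
        have e2 : ∑ σ, P w σ * ∑ x, c σ x * (lam x - Real.log 128 * ind (x ∉ (V ∪ w).image π)) =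
            ∑ σ, P w σ * ∑ x, c σ x * lam x - Real.log 128 *
              ∑ σ, P w σ * ∑ x, c σ x * ind (x ∉ (V ∪ w).image π) := by
          rw [Finset.mul_sum, ← Finset.sum_sub_distrib]
          refine Finset.sum_congr rfl fun σ _ => ?_
          rw [mul_left_comm, ← mul_sub, Finset.mul_sum univ _ (Real.log 128),
            ← Finset.sum_sub_distrib]
          congr 1
          exact Finset.sum_congr rfl fun x _ => by ring
        rw [e2] at h1
        linarith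
      have h1 := Ex_mono hp0 hp1 hw
      rw [Ex_sub, Ex_sub, Ex_const_mul, Ex_const_mul, Ex_const,
        Ex_sum p univ (fun σ w => P w σ * ∑ x, c σ x * lam x),
        Ex_sum p univ (fun ι w => ∏ x ∈ Fam ι,
            Real.exp (lam x) * (if x ∈ (V ∪ w).image π then 1 else η))] at h1
      simp only [Ex_mul_const] at h1
      have hπ : ∀ x, ∑ y ∈ univ.filter (fun y => π y = x), p y ≤ η := fun x => by
        simp only [hpdef]
        rw [← Finset.mul_sum]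
        exact mul_le_of_le_one_right hη.le (hθ1 x)
      have h2 : ∑ ι, Ex p (fun w => ∏ x ∈ Fam ι,
            Real.exp (lam x) * (if x ∈ (V ∪ w).image π then 1 else η)) ≤
          ∑ ι, ∏ x ∈ Fam ι,
            Real.exp (lam x) * (if x ∈ V.image π then 1 else 2 * η) := by
        refine Finset.sum_le_sum fun ι _ => ?_
        have := projH hp π hη.le hπ (fun x => Real.exp (lam x)) (fun x => (Real.exp_pos _).le)
          V (Fam ι)
        rw [two_mul]
        exact this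
      have h3 := mul_le_mul_of_nonneg_left h2 hg
      linarith

end CoreAux

/-- the selector theorem in linearised form -/
theorem core {X Y Ω I : Type*} [Fintype X] [DecidableEq X] [Fintype Y] [DecidableEq Y]
    [Fintype Ω] [Nonempty Ω] [Fintype I] (π : Y → X) (S : ℕ → Ω → Finset Y) (hS : Dj S)
    (φ : Y → ℝ) (hφ : ∀ x, 0 ≤ φ x) (R : ℕ) (Yv : ℕ → ℝ) (hY0 : ∀ i, 0 ≤ Yv i)
    (hY : ∀ i, i + 1 < R → 3 * Yv i ≤ Yv (i + 1)) (ω : ℕ → ℝ) (hω : ∀ i, 0 ≤ ω i)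
    (θ : Y → ℝ) (hθ : ∀ y, 0 < θ y) (hθ1 : ∀ x, ∑ y ∈ univ.filter (fun y => π y = x), θ y ≤ 1)
    {pb δ : ℝ} (hpb : 0 < pb) (hδ : 0 ≤ δ) (J : ℕ) (hJ : 1 ≤ 2 * (64 ^ J * pb))
    (hJ' : ∀ j < J, 64 ^ j * pb ≤ 1)
    (hD : ∀ j < J, ∀ i < R, DB (fun y => 64 ^ j * pb * θ y) φ S i (2 * (δ / 8 ^ j) * Yv i))
    (c : Ω → X → ℝ) (Fam : I → Finset X) {g : ℝ} (hg : 0 ≤ g)
    (hlin : ∀ σ (lam : X → ℝ), ∑ x, c σ x * lam x ≤ g * ∑ ι, ∏ x ∈ Fam ι, Real.exp (lam x) - 1)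
    (hmass : ∀ σ (V : Finset Y),
      ∑ x, c σ x * ind (x ∉ V.image π) ≤ ∑ i ∈ range R, ω i * ph φ S V i σ)
    {k : ℝ} (hc : ∀ σ, ∑ x, c σ x = k) (c0 : ℝ) :
    k * c0 - Real.log 128 * (14 * δ * ∑ i ∈ range R, ω i * Yv i) ≤
      g * ∑ ι, (Real.exp c0 * (2 * pb)) ^ (Fam ι).card - 1 := by
  obtain ⟨P, A, -, hP1, -, hA, hlam⟩ := CoreAux.ind_levels π S hS φ hφ R Yv hY0 hY ω hω θ hθ hθ1
    hpb hδ J hJ hJ' hD c Fam hg hlin hmass J 0 (by omega) ∅ (fun _ _ => 1) St.init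
  have h1 := hlam (fun _ => c0)
  simp only [Finset.image_empty, Finset.notMem_empty, if_false, pow_zero, one_mul,
    Finset.prod_const, ← Finset.sum_mul, hc] at h1
  rw [hP1, one_mul] at h1
  rw [pow_zero, div_one] at hA
  have hl : 0 ≤ Real.log 128 := Real.log_nonneg (by norm_num)
  have h2 := mul_le_mul_of_nonneg_left hA hl
  linarith

end Crest.Agent.R55
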