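import Crest.Agent.R55.Defs

set_option autoImplicit false
open Finset

namespace Crest.Agent.R55

variable {G X : Type*} [Group G] [MulAction G X] [Fintype G] [DecidableEq X]

namespace CosetX

omit [Fintype G] in
lemma img_card {R : ℕ} (k : X → Fin (R + 1)) (J : Finset X) (σ : G) :
    (J.image fun e => (σ • e, k e)).card = J.card :=
  card_image_of_injective _ fun _ _ h => MulAction.injective σ (congrArg Prod.fst h)

omit [DecidableEq X] in
lemma lab_iff {R m : ℕ} (hm : m < R) (nn : X → ℕ) (e e' : X) :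
    lab R nn m e = lab R nn m e' ↔ m + 1 - nn e = m + 1 - nn e' := by
  rw [Fin.ext_iff]
  simp only [lab]
  omega

omit [Fintype G] in
lemma img_iff {R m : ℕ} (hm : m < R) (nn : X → ℕ) (J : Finset X) (σ τ : G) :
    (J.image fun e => (τ • e, lab R nn m e)) = (J.image fun e => (σ • e, lab R nn m e)) ↔
      Fx (fun e => m + 1 - nn e) J (σ⁻¹ * τ) := by
  constructor
  · intro h e he
    obtain ⟨e', he', h'⟩ := mem_image.1 (h ▸ mem_image_of_mem (fun e => (τ • e, lab R nn m e)) he)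
    obtain ⟨h1, h2⟩ := Prod.mk.inj h'
    have : (σ⁻¹ * τ) • e = e' := by rw [mul_smul, ← h1, inv_smul_smul]
    rw [this]
    exact ⟨he', (lab_iff hm nn _ _).1 h2⟩
  · intro h
    refine eq_of_subset_of_card_le (fun y hy => ?_) (by rw [img_card, img_card])
    obtain ⟨e, he, rfl⟩ := mem_image.1 hy
    refine mem_image.2 ⟨(σ⁻¹ * τ) • e, (h e he).1, Prod.ext ?_ ((lab_iff hm nn _ _).2 (h e he).2)⟩
    simp only [mul_smul, smul_inv_smul]

lemma mem_cls {R i : ℕ} (hi : i < R) (nn : X → ℕ) (B : ℕ → Finset X) (σ τ : G) :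
    τ ∈ cls (coh R nn B) i σ ↔ σ⁻¹ * τ ∈ (Gam nn B i : Finset G) := by
  simp only [cls, Gam, mem_filter, mem_univ, true_and]
  exact forall₂_congr fun m hm => img_iff (hm.trans hi) nn (B m) σ τ

lemma card_cls {R i : ℕ} (hi : i < R) (nn : X → ℕ) (B : ℕ → Finset X) (σ : G) :
    (cls (coh R nn B) i σ).card = (Gam nn B i : Finset G).card :=
  card_bijective (fun τ => σ⁻¹ * τ) (Group.mulLeft_bijective _) (mem_cls hi nn B σ)

end CosetX

omit [Fintype G] in
lemma coh_dj (R : ℕ) (nn : X → ℕ) (B : ℕ → Finset X)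
    (hB : ∀ m i, m ≠ i → Disjoint (B m) (B i)) : Dj (coh (G := G) R nn B) := by
  intro σ m i hmi
  refine disjoint_left.2 fun y h1 h2 => ?_
  obtain ⟨e, he, rfl⟩ := mem_image.1 h1
  obtain ⟨e', he', h⟩ := mem_image.1 h2
  obtain rfl : e' = e := MulAction.injective σ (congrArg Prod.fst h)
  exact disjoint_left.1 (hB m i hmi) he he'

omit [Fintype G] in
lemma coh_card (R : ℕ) (nn : X → ℕ) (B : ℕ → Finset X) (i : ℕ) (σ : G) :
    (coh R nn B i σ).card = (B i).card :=
  CosetX.img_card _ _ _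

open Classical in
/-- coset counting -/
lemma cnt_le {Q : ℝ} {R : ℕ} {nn : X → ℕ} {B : ℕ → Finset X} {i : ℕ} (hi : i < R)
    {J : Finset X} (hJ : Closed G Q nn B i J) (hQ : 0 ≤ Q) (σ : G)
    (U : Finset (X × Fin (R + 1))) :
    (((cls (coh R nn B) i σ).filter fun τ : G =>
        J.image (fun e => (τ • e, lab R nn i e)) = U).card : ℝ) ≤
      (cls (coh (G := G) R nn B) i σ).card *
        ∏ e ∈ J, (Q * Real.exp 1 * Real.exp (-(4 ^ i / 4 ^ nn e))) := by
  rcases ((cls (coh R nn B) i σ).filter fun τ : G =>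
    J.image (fun e => (τ • e, lab R nn i e)) = U).eq_empty_or_nonempty with h | ⟨s, hs⟩
  · rw [h, card_empty, Nat.cast_zero]
    exact mul_nonneg (Nat.cast_nonneg _) (prod_nonneg fun e _ => by positivity)
  · obtain ⟨s1, s2⟩ := mem_filter.1 hs
    rw [CosetX.card_cls hi]
    refine le_trans (Nat.cast_le.2 (card_le_card_of_injOn (fun τ => s⁻¹ * τ) (fun τ hτ => ?_)
      fun _ _ _ _ h => mul_left_cancel h)) hJ
    obtain ⟨t1, t2⟩ := mem_filter.1 (mem_coe.1 hτ)
    refine mem_coe.2 (mem_filter.2 ⟨(CosetX.mem_cls hi nn B s τ).1 ?_,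
      (CosetX.img_iff hi nn J s τ).1 (t2.trans s2.symm)⟩)
    simp only [cls, mem_filter, mem_univ, true_and] at s1 t1 ⊢
    exact fun m hm => (t1 m hm).trans (s1 m hm).symm

end Crest.Agent.R55
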