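import Crest.Agent.R55.Coset

set_option autoImplicit false
open Finset

namespace Crest.Agent.R55

variable {G X : Type*} [Group G] [MulAction G X] [Fintype G] [DecidableEq X]

namespace DBdA

lemma fac (i n : ℕ) :
    Real.exp ((4 : ℝ) ^ (i + 1 - n) / 8) * 2 ^ ((i + 1 - n) + 1) *
      Real.exp (-(4 ^ i / 4 ^ n)) ≤ 4 := by
  rcases le_or_gt n i with h | h
  · obtain ⟨m, rfl⟩ := Nat.exists_eq_add_of_le h
    have h1 : n + m + 1 - n = m + 1 := by omega
    rw [h1]
    have h2 : (4 : ℝ) ^ (n + m) / 4 ^ n = 4 ^ m := by rw [pow_add]; field_simp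
    rw [h2]
    have h3 : (4 : ℝ) ^ m = (2 ^ m) ^ 2 := by rw [← pow_mul, mul_comm, pow_mul]; norm_num
    have h4 : (2 : ℝ) ^ m ≤ Real.exp (4 ^ m / 2) := by
      have := Real.add_one_le_exp ((4 : ℝ) ^ m / 2)
      nlinarith [sq_nonneg ((2 : ℝ) ^ m - 1)]
    have h5 : Real.exp ((4 : ℝ) ^ (m + 1) / 8) * Real.exp (-(4 ^ m)) * Real.exp (4 ^ m / 2) = 1 := by
      rw [← Real.exp_add, ← Real.exp_add, ← Real.exp_zero]; congr 1; ring
    have h6 : 0 ≤ Real.exp ((4 : ℝ) ^ (m + 1) / 8) * Real.exp (-(4 ^ m)) := by positivity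
    have h7 := mul_le_mul_of_nonneg_left h4 h6
    rw [h5] at h7
    calc Real.exp ((4 : ℝ) ^ (m + 1) / 8) * 2 ^ (m + 1 + 1) * Real.exp (-(4 ^ m))
        = 4 * (Real.exp ((4 : ℝ) ^ (m + 1) / 8) * Real.exp (-(4 ^ m)) * 2 ^ m) := by ring
      _ ≤ 4 := by linarith
  · have h1 : i + 1 - n = 0 := by omega
    rw [h1]
    have h2 : Real.exp (-((4 : ℝ) ^ i / 4 ^ n)) ≤ 1 := by
      rw [Real.exp_le_one_iff]
      have : (0 : ℝ) ≤ 4 ^ i / 4 ^ n := by positivity
      linarith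
    have h3 : Real.exp ((4 : ℝ) ^ 0 / 8) ≤ 2 := by
      have h4 := Real.add_one_le_exp (-((4 : ℝ) ^ 0 / 8))
      have h5 : Real.exp ((4 : ℝ) ^ 0 / 8) * Real.exp (-((4 : ℝ) ^ 0 / 8)) = 1 := by
        rw [← Real.exp_add]; simp
      have h6 := Real.exp_pos ((4 : ℝ) ^ 0 / 8)
      have h7 := mul_le_mul_of_nonneg_left h4 h6.le
      rw [h5] at h7
      norm_num at h7 h6 ⊢
      linarith
    have h8 := Real.exp_pos (-((4 : ℝ) ^ i / 4 ^ n))
    have h9 := Real.exp_pos ((4 : ℝ) ^ 0 / 8)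
    have h10 : Real.exp ((4 : ℝ) ^ 0 / 8) * Real.exp (-((4 : ℝ) ^ i / 4 ^ n)) ≤ 2 * 1 :=
      mul_le_mul h3 h2 h8.le (by norm_num)
    calc Real.exp ((4 : ℝ) ^ 0 / 8) * 2 ^ (0 + 1) * Real.exp (-((4 : ℝ) ^ i / 4 ^ n))
        = 2 * (Real.exp ((4 : ℝ) ^ 0 / 8) * Real.exp (-((4 : ℝ) ^ i / 4 ^ n))) := by ring
      _ ≤ 4 := by linarith

omit [Fintype G] in
lemma inj (R : ℕ) (nn : X → ℕ) (i : ℕ) (τ : G) :
    Function.Injective fun e : X => (τ • e, lab R nn i e) := by
  intro a b h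
  have h1 : τ • a = τ • b := congrArg Prod.fst h
  exact MulAction.injective τ h1

lemma sum_pow_card {Y : Type*} [DecidableEq Y] (T : Finset Y) (δ : ℝ) :
    ∑ U ∈ T.powerset, δ ^ U.card = (1 + δ) ^ T.card := by
  have h := Finset.prod_one_add (f := fun _ : Y => δ) T
  simp only [prod_const] at h
  exact h.symm

open Classical in
lemma term_le {Q : ℝ} (hQ : 0 ≤ Q) {R : ℕ} {nn : X → ℕ} {B : ℕ → Finset X} {i : ℕ}
    (hi : i < R) {J : Finset X} (hJ : Closed G Q nn B i J) {s δ : ℝ} (hs : 0 < s)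
    (hδ : 0 ≤ δ) (hsδ : 4 * Real.exp 1 * Q ≤ δ ^ 2 * s) (σ : G)
    (U : Finset (X × Fin (R + 1))) :
    (∏ x ∈ U, Real.exp (phi x) / (s * th x)) *
      (((cls (coh (G := G) R nn B) i σ).card : ℝ)⁻¹ *
        (((cls (coh R nn B) i σ).filter fun τ : G =>
          J.image (fun e => (τ • e, lab R nn i e)) = U).card : ℝ)) ≤
      δ ^ U.card * δ ^ J.card := by
  rcases ((cls (coh R nn B) i σ).filter fun τ : G =>
          J.image (fun e => (τ • e, lab R nn i e)) = U).eq_empty_or_nonempty with h | ⟨τ, hτ⟩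
  · rw [h]; simp only [card_empty, Nat.cast_zero, mul_zero]; positivity
  · have hU := (mem_filter.1 hτ).2
    have hC : (0 : ℝ) < (cls (coh (G := G) R nn B) i σ).card := by
      exact_mod_cast card_pos.2 ⟨τ, (mem_filter.1 hτ).1⟩
    have h1 := cnt_le hi hJ hQ σ U
    have h2 : ((cls (coh (G := G) R nn B) i σ).card : ℝ)⁻¹ *
        (((cls (coh R nn B) i σ).filter fun τ : G =>
          J.image (fun e => (τ • e, lab R nn i e)) = U).card : ℝ) ≤
        ∏ e ∈ J, (Q * Real.exp 1 * Real.exp (-(4 ^ i / 4 ^ nn e))) := by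
      rw [inv_mul_le_iff₀ hC]; exact h1
    have hcard : U.card = J.card := by
      rw [← hU]; exact card_image_of_injective _ (inj R nn i τ)
    have hw : (∏ x ∈ U, Real.exp (phi x) / (s * th x)) =
        ∏ e ∈ J, Real.exp ((4 : ℝ) ^ (i + 1 - nn e) / 8) * 2 ^ ((i + 1 - nn e) + 1) / s := by
      rw [← hU, prod_image (fun a _ b _ h => inj R nn i τ h)]
      refine prod_congr rfl fun e _ => ?_
      have hl : min (i + 1 - nn e) R = i + 1 - nn e := min_eq_left (by omega)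
      simp only [phi, th, lab, hl]
      field_simp
    have hw0 : 0 ≤ ∏ x ∈ U, Real.exp (phi x) / (s * th x) := by
      rw [hw]; exact prod_nonneg fun e _ => by positivity
    refine (mul_le_mul_of_nonneg_left h2 hw0).trans ?_
    rw [hw, ← prod_mul_distrib, hcard, ← mul_pow, ← prod_const]
    refine prod_le_prod (fun e _ => by positivity) fun e _ => ?_
    have h3 := fac i (nn e)
    have h4 : 0 ≤ Q * Real.exp 1 := by positivity
    have h5 := mul_le_mul_of_nonneg_left h3 h4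
    rw [div_mul_eq_mul_div, div_le_iff₀ hs]
    nlinarith

open Classical in
lemma psi0_le (R : ℕ) (nn : X → ℕ) (B : ℕ → Finset X) (i : ℕ) (σ : G)
    (U : Finset (X × Fin (R + 1))) :
    psi0 (coh (G := G) R nn B) i σ U ≤ ∑ J ∈ (B i).powerset,
      ((cls (coh (G := G) R nn B) i σ).card : ℝ)⁻¹ *
        (((cls (coh R nn B) i σ).filter fun τ : G =>
          J.image (fun e => (τ • e, lab R nn i e)) = U).card : ℝ) := by
  unfold psi0 psi
  simp only [card_filter, Nat.cast_sum, mul_sum]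
  rw [sum_comm]
  refine sum_le_sum fun τ _ => ?_
  rw [← mul_sum]
  refine mul_le_mul_of_nonneg_left ?_ (by positivity)
  by_cases h : U ⊆ coh R nn B i τ
  · rw [ind_true h]
    obtain ⟨J, hJ, hJU⟩ := subset_image_iff.1 h
    have := single_le_sum (f := fun J : Finset X =>
      (((if J.image (fun e => (τ • e, lab R nn i e)) = U then 1 else 0 : ℕ)) : ℝ))
      (fun _ _ => Nat.cast_nonneg _) (mem_powerset.2 hJ)
    simpa [hJU] using this
  · rw [ind_false h]
    exact sum_nonneg fun _ _ => Nat.cast_nonneg _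

end DBdA

/-- the second moment budget from closedness -/
theorem db_of_closed {Q : ℝ} (hQ : 0 ≤ Q) {R : ℕ} {nn : X → ℕ} {B : ℕ → Finset X} {i : ℕ}
    (hi : i < R) (hcl : ∀ J ⊆ B i, Closed G Q nn B i J) {s δ : ℝ} (hs : 0 < s) (hδ : 0 ≤ δ)
    (hsδ : 4 * Real.exp 1 * Q ≤ δ ^ 2 * s) :
    DB (fun y => s * th y) phi (coh (G := G) R nn B) i (2 * δ * (B i).card) := by
  intro σ
  have h1 : ∀ U ∈ (coh R nn B i σ).powerset,
      (∏ x ∈ U, Real.exp (phi x) / (s * th x)) * psi0 (coh (G := G) R nn B) i σ U ≤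
        δ ^ U.card * (1 + δ) ^ (B i).card := by
    intro U _
    have hw0 : 0 ≤ ∏ x ∈ U, Real.exp (phi x) / (s * th x) :=
      prod_nonneg fun x _ => by unfold th; positivity
    refine (mul_le_mul_of_nonneg_left (DBdA.psi0_le R nn B i σ U) hw0).trans ?_
    rw [← DBdA.sum_pow_card, mul_sum, mul_sum]
    exact sum_le_sum fun J hJ =>
      DBdA.term_le hQ hi (hcl J (mem_powerset.1 hJ)) hs hδ hsδ σ U
  refine (sum_le_sum h1).trans ?_
  rw [← sum_mul, DBdA.sum_pow_card, coh_card]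
  have h2 : (1 + δ) ^ (B i).card ≤ Real.exp (δ * (B i).card) := by
    rw [mul_comm, Real.exp_nat_mul]
    exact pow_le_pow_left₀ (by linarith) (by linarith [Real.add_one_le_exp δ]) _
  have h3 : Real.exp (2 * δ * (B i).card) =
      Real.exp (δ * (B i).card) * Real.exp (δ * (B i).card) := by
    rw [← Real.exp_add]; congr 1; ring
  rw [h3]
  exact mul_le_mul h2 h2 (by positivity) (Real.exp_pos _).le

end Crest.Agent.R55
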