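import Crest.Agent.R55.Sel

set_option autoImplicit false
open Finset

namespace Crest.Agent.R55

variable {G X : Type*} [Group G] [MulAction G X] [Fintype G] [Fintype X] [DecidableEq X]

namespace DKPX

omit [Fintype G] [Fintype X] in
lemma card_im (F : Finset X) (τ : G) : (F.image fun x => τ • x).card = F.card :=
  card_image_of_injective _ (MulAction.injective τ)

omit [Fintype G] [Fintype X] in
lemma sum_im (F : Finset X) (σ τ : G) (lam : X → ℝ) :
    ∑ e ∈ F.image (fun x => τ • x), lam (σ • e) =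
      ∑ x ∈ F.image (fun x => (σ * τ) • x), lam x := by
  rw [sum_image (fun a _ b _ h => MulAction.injective τ h),
    sum_image (fun a _ b _ h => MulAction.injective (σ * τ) h)]
  simp only [mul_smul]

omit [Fintype G] [Fintype X] in
lemma sum_d (H F : Finset X) (T : Finset G) (hT : ∀ τ ∈ T, ∀ x ∈ F, τ • x ∈ H) (g : ℝ)
    (f : X → ℝ) :
    ∑ e ∈ H, (g * ∑ τ ∈ T, (if e ∈ F.image (fun x => τ • x) then (1 : ℝ) else 0)) * f e =
      g * ∑ τ ∈ T, ∑ e ∈ F.image (fun x => τ • x), f e := by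
  have h1 : ∀ τ ∈ T, ∑ e ∈ F.image (fun x => τ • x), f e =
      ∑ e ∈ H, (if e ∈ F.image (fun x => τ • x) then (1 : ℝ) else 0) * f e := by
    intro τ hτ
    have hs : F.image (fun x => τ • x) ⊆ H := by
      intro y hy
      obtain ⟨x, hx, rfl⟩ := mem_image.1 hy
      exact hT τ hτ x hx
    simp only [ite_mul, one_mul, zero_mul]
    rw [← sum_filter, filter_mem_eq_inter, inter_eq_right.2 hs]
  rw [sum_congr rfl h1, sum_comm, mul_sum]
  refine sum_congr rfl fun e _ => ?_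
  rw [mul_assoc, sum_mul]

lemma nn_bd (d : ℝ) (h0 : 0 ≤ d) (h1 : d ≤ 1) (R : ℕ) :
    ∃ n : ℕ, d ≤ (4 ^ n : ℝ)⁻¹ ∧ (4 ^ n : ℝ)⁻¹ ≤ 4 * d + (4 ^ R : ℝ)⁻¹ := by
  classical
  refine ⟨Nat.findGreatest (fun n => d ≤ (4 ^ n : ℝ)⁻¹) R, ?_, ?_⟩
  · exact Nat.findGreatest_spec (P := fun n => d ≤ (4 ^ n : ℝ)⁻¹) (Nat.zero_le R) (by simpa using h1)
  · set n := Nat.findGreatest (fun n => d ≤ (4 ^ n : ℝ)⁻¹) R with hn
    have hle : n ≤ R := Nat.findGreatest_le R
    rcases hle.eq_or_lt with h | h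
    · rw [h]; linarith
    · have h2 : ¬ d ≤ (4 ^ (n + 1) : ℝ)⁻¹ :=
        Nat.findGreatest_is_greatest (P := fun n => d ≤ (4 ^ n : ℝ)⁻¹) (Nat.lt_succ_self n) h
      have h3 : (4 ^ n : ℝ)⁻¹ = 4 * (4 ^ (n + 1) : ℝ)⁻¹ := by
        rw [pow_succ]; field_simp
      have h4 : (0 : ℝ) ≤ (4 ^ R : ℝ)⁻¹ := by positivity
      rw [h3]
      linarith [not_le.1 h2]

end DKPX

open Classical in
/-- the Dubroff--Kahn--Park conjecture -/
theorem dkp {H : Finset X} {Q : ℝ} (hQ : 0 < Q) (hH : Sparse G H Q) (F : Finset X) :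
    (((univ : Finset G).filter fun τ => ∀ x ∈ F, τ • x ∈ H).card : ℝ) ≤
      Fintype.card G * (2 ^ 34 * Real.exp 1 * Q) ^ F.card := by
  set T : Finset G := (univ : Finset G).filter fun τ => ∀ x ∈ F, τ • x ∈ H with hTdef
  have hT : ∀ τ ∈ T, ∀ x ∈ F, τ • x ∈ H := fun τ hτ => (mem_filter.1 hτ).2
  have hGpos : (0 : ℝ) < Fintype.card G := by exact_mod_cast Fintype.card_pos
  rcases Nat.eq_zero_or_pos F.card with hk | hk
  · rw [hk, pow_zero, mul_one]
    exact_mod_cast card_le_univ T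
  rcases Nat.eq_zero_or_pos T.card with hN | hN
  · rw [hN]; simp only [Nat.cast_zero]; positivity
  have hNpos : (0 : ℝ) < T.card := by exact_mod_cast hN
  have hkpos : (1 : ℝ) ≤ F.card := by exact_mod_cast hk
  set g : ℝ := (T.card : ℝ)⁻¹ with hg
  have hg0 : 0 ≤ g := by positivity
  have hgN : g * T.card = 1 := inv_mul_cancel₀ hNpos.ne'
  set d : X → ℝ := fun e =>
    g * ∑ τ ∈ T, (if e ∈ F.image (fun x => τ • x) then (1 : ℝ) else 0) with hd
  have hd0 : ∀ e, 0 ≤ d e := fun e =>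
    mul_nonneg hg0 (sum_nonneg fun τ _ => by split_ifs <;> norm_num)
  have hd1 : ∀ e, d e ≤ 1 := by
    intro e
    have : ∑ τ ∈ T, (if e ∈ F.image (fun x => τ • x) then (1 : ℝ) else 0) ≤ T.card := by
      calc _ ≤ ∑ τ ∈ T, (1 : ℝ) := sum_le_sum fun τ _ => by split_ifs <;> norm_num
        _ = T.card := by simp
    calc d e ≤ g * T.card := mul_le_mul_of_nonneg_left this hg0
      _ = 1 := hgN
  have hsum : ∑ e ∈ H, d e = F.card := by
    have h := DKPX.sum_d H F T hT g (fun _ => 1)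
    simp only [mul_one, sum_const, DKPX.card_im, nsmul_eq_mul] at h
    rw [show ∑ e ∈ H, d e = g * (T.card * F.card) from h, ← mul_assoc, hgN, one_mul]
  set R : ℕ := H.card + 1 with hR
  have hR1 : 1 ≤ R := Nat.le_add_left 1 _
  have hhR : (H.card : ℝ) ≤ 4 ^ R := by
    have h1 : H.card < 4 ^ H.card := Nat.lt_pow_self (by norm_num)
    have h2 : 4 ^ H.card ≤ 4 ^ R := Nat.pow_le_pow_right (by norm_num) (Nat.le_succ _)
    exact_mod_cast (h1.le.trans h2)
  choose nn hnn1 hnn2 using fun e => DKPX.nn_bd (d e) (hd0 e) (hd1 e) R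
  have hlin : ∀ (σ : G) (lam : X → ℝ), ∑ e ∈ H, d e * lam (σ • e) ≤
      g * ∑ ι : G, ∏ x ∈ F.image (fun x => ι • x), Real.exp (lam x) - 1 := by
    intro σ lam
    have h := DKPX.sum_d H F T hT g (fun e => lam (σ • e))
    rw [show ∑ e ∈ H, d e * lam (σ • e) = _ from h]
    have h1 : ∑ τ ∈ T, ∑ e ∈ F.image (fun x => τ • x), lam (σ • e) ≤
        ∑ τ ∈ T, (∏ x ∈ F.image (fun x => (σ * τ) • x), Real.exp (lam x) - 1) := by
      refine sum_le_sum fun τ _ => ?_
      rw [DKPX.sum_im, ← Real.exp_sum]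
      linarith [Real.add_one_le_exp (∑ x ∈ F.image (fun x => (σ * τ) • x), lam x)]
    have h2 : ∑ τ ∈ T, ∏ x ∈ F.image (fun x => (σ * τ) • x), Real.exp (lam x) ≤
        ∑ ι : G, ∏ x ∈ F.image (fun x => ι • x), Real.exp (lam x) := by
      rw [← sum_image (s := T) (g := fun τ => σ * τ)
        (f := fun ι => ∏ x ∈ F.image (fun x => ι • x), Real.exp (lam x))
        (fun a _ b _ h => mul_left_cancel h)]
      exact sum_le_sum_of_subset_of_nonneg (subset_univ _)
        fun ι _ _ => prod_nonneg fun x _ => (Real.exp_pos _).le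
    rw [sum_sub_distrib, sum_const, nsmul_eq_mul, mul_one] at h1
    calc g * ∑ τ ∈ T, ∑ e ∈ F.image (fun x => τ • x), lam (σ • e)
        ≤ g * (∑ ι : G, ∏ x ∈ F.image (fun x => ι • x), Real.exp (lam x) - T.card) :=
          mul_le_mul_of_nonneg_left (by linarith) hg0
      _ = _ := by rw [mul_sub, hgN]
  set A : ℝ := 2 ^ 27 * Real.exp 1 * Q with hA
  have hA0 : 0 < A := by positivity
  set r : ℝ := T.card / Fintype.card G with hr
  have hr0 : 0 < r := by positivity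
  have key := sel hQ hH nn R hR1 hhR d (fun e _ => hnn1 e)
    (fun ι : G => F.image (fun x => ι • x)) hg0 hlin (Real.log r / F.card - Real.log A)
  have hpow : (Real.exp (Real.log r / F.card - Real.log A) * A) ^ F.card = r := by
    rw [Real.exp_sub, Real.exp_log hA0, div_mul_cancel₀ _ hA0.ne', ← Real.exp_nat_mul,
      mul_div_cancel₀ _ (by linarith : (F.card : ℝ) ≠ 0), Real.exp_log hr0]
  simp only [DKPX.card_im] at key
  rw [← hA, hpow, hsum, sum_const, card_univ, nsmul_eq_mul, hr,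
    mul_div_cancel₀ _ hGpos.ne', hgN, ← hr] at key
  have hS : ∑ e ∈ H, (4 ^ nn e : ℝ)⁻¹ ≤ 4 * F.card + 1 := by
    calc ∑ e ∈ H, (4 ^ nn e : ℝ)⁻¹ ≤ ∑ e ∈ H, (4 * d e + (4 ^ R : ℝ)⁻¹) :=
          sum_le_sum fun e _ => hnn2 e
      _ = 4 * F.card + H.card * (4 ^ R : ℝ)⁻¹ := by
          rw [sum_add_distrib, ← mul_sum, hsum, sum_const, nsmul_eq_mul]
      _ ≤ 4 * F.card + 1 := by
          have : (H.card : ℝ) * (4 ^ R : ℝ)⁻¹ ≤ 1 := by
            rw [← div_eq_mul_inv, div_le_one (by positivity)]; exact hhR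
          linarith
  have hl0 : 0 ≤ Real.log 128 := Real.log_nonneg (by norm_num)
  have h5 : Real.log 128 * (448 / 4096 * (∑ e ∈ H, (4 ^ nn e : ℝ)⁻¹ + 1)) ≤
      Real.log 128 * F.card := mul_le_mul_of_nonneg_left (by linarith) hl0
  have h6 : (F.card : ℝ) * (Real.log r / F.card - Real.log A) =
      Real.log r - F.card * Real.log A := by
    rw [mul_sub, mul_div_cancel₀ _ (by linarith : (F.card : ℝ) ≠ 0)]
  have h7 : Real.log r ≤ Real.log ((2 ^ 34 * Real.exp 1 * Q) ^ F.card) := by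
    rw [Real.log_pow, show (2 : ℝ) ^ 34 * Real.exp 1 * Q = 128 * A by rw [hA]; ring,
      Real.log_mul (by norm_num) hA0.ne']
    linarith
  have h8 : r ≤ (2 ^ 34 * Real.exp 1 * Q) ^ F.card :=
    (Real.log_le_log_iff hr0 (by positivity)).1 h7
  rw [hr, div_le_iff₀ hGpos] at h8
  linarith

end Crest.Agent.R55
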