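import Mathlib

/-! Row 55 (second Kahn--Kalai conjecture): definitions. -/

set_option autoImplicit false
open Finset

namespace Crest.Agent.R55

noncomputable section

open Classical in
/-- indicator of a proposition -/
def ind (P : Prop) : ℝ := if P then 1 else 0

lemma ind_true {P : Prop} (h : P) : ind P = 1 := by simp [ind, h]
lemma ind_false {P : Prop} (h : ¬ P) : ind P = 0 := by simp [ind, h]
lemma ind_nonneg (P : Prop) : 0 ≤ ind P := by unfold ind; split_ifs <;> norm_num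
lemma ind_le_one (P : Prop) : ind P ≤ 1 := by unfold ind; split_ifs <;> norm_num
lemma ind_congr {P Q : Prop} (h : P ↔ Q) : ind P = ind Q := by rw [propext h]
lemma ind_mono {P Q : Prop} (h : P → Q) : ind P ≤ ind Q := by
  by_cases hP : P
  · rw [ind_true hP, ind_true (h hP)]
  · rw [ind_false hP]; exact ind_nonneg _
lemma ind_eq_ite (P : Prop) [Decidable P] : ind P = if P then 1 else 0 := by
  by_cases h : P <;> simp [ind, h]

section Bern
variable {Y : Type*} [Fintype Y] [DecidableEq Y]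

/-- weight of the set `w` when each point `x` is included independently with probability `p x` -/
def wt (p : Y → ℝ) (w : Finset Y) : ℝ := (∏ x ∈ w, p x) * ∏ x ∈ wᶜ, (1 - p x)

/-- expectation over the random set -/
def Ex (p : Y → ℝ) (g : Finset Y → ℝ) : ℝ := ∑ w : Finset Y, wt p w * g w

end Bern

/-- inverse probability that the random set contains `T` -/
def ip {Y : Type*} (p : Y → ℝ) (T : Finset Y) : ℝ := ∏ x ∈ T, (p x)⁻¹

/-- admissible inclusion probabilities -/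
def Pr {Y : Type*} (p : Y → ℝ) : Prop := ∀ x, 0 < p x ∧ p x ≤ 1

section Res
variable {Y Ω : Type*} [DecidableEq Y]

/-- planted/null likelihood ratio -/
def Zf (p : Y → ℝ) (C : Finset Ω) (κ : Ω → ℝ) (t : Ω → Finset Y) (y : Finset Y) : ℝ :=
  ∑ τ ∈ C, κ τ * (ip p (t τ) * ind (t τ ⊆ y))

/-- density of the posterior resample (w.r.t. the prior `κ`) at a point with fragment `T` -/
def rr (p : Y → ℝ) (C : Finset Ω) (κ : Ω → ℝ) (t : Ω → Finset Y) (T w : Finset Y) : ℝ :=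
  ip p T * ∑ τ ∈ C, κ τ * ind (T ⊆ w ∪ t τ) * (Zf p C κ t (w ∪ t τ))⁻¹

def r2 (p : Y → ℝ) (C : Finset Ω) (κ : Ω → ℝ) (t : Ω → Finset Y) (T w : Finset Y) : ℝ :=
  ip p T * ∑ τ ∈ C, κ τ * ind (T ⊆ w ∪ t τ) * (Zf p C κ t (w ∪ t τ))⁻¹ ^ 2

def gb (p : Y → ℝ) (C : Finset Ω) (κ : Ω → ℝ) (t : Ω → Finset Y) (w : Finset Y) : ℝ :=
  ∑ τ ∈ C, κ τ * (Zf p C κ t (w ∪ t τ))⁻¹

/-- probability that the fragment contains `U` -/
def psi (C : Finset Ω) (κ : Ω → ℝ) (t : Ω → Finset Y) (U : Finset Y) : ℝ :=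
  ∑ τ ∈ C, κ τ * ind (U ⊆ t τ)

end Res

section Chain
variable {Y Ω : Type*} [DecidableEq Y] [Fintype Ω]

/-- points with the same first `i` cohorts as `σ` -/
def cls (S : ℕ → Ω → Finset Y) (i : ℕ) (σ : Ω) : Finset Ω :=
  univ.filter fun τ => ∀ m < i, S m τ = S m σ

/-- `f` depends only on the first `i` cohorts -/
def Meas (S : ℕ → Ω → Finset Y) (i : ℕ) (f : Ω → ℝ) : Prop :=
  ∀ σ τ, (∀ m < i, S m τ = S m σ) → f τ = f σ

/-- uniform average -/
def av (u : Ω → ℝ) : ℝ := (Fintype.card Ω : ℝ)⁻¹ * ∑ σ, u σ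

/-- conditional average given the first `i` cohorts -/
def cav (S : ℕ → Ω → Finset Y) (i : ℕ) (σ : Ω) (u : Ω → ℝ) : ℝ :=
  ∑ τ ∈ cls S i σ, ((cls S i σ).card : ℝ)⁻¹ * u τ

/-- the current kernel of cohort `i` -/
def kap (S : ℕ → Ω → Finset Y) (ρ : ℕ → Ω → ℝ) (i : ℕ) (σ : Ω) (τ : Ω) : ℝ :=
  ((cls S i σ).card : ℝ)⁻¹ * ρ i τ

/-- prior conditional probability that cohort `i` contains `U` -/
def psi0 (S : ℕ → Ω → Finset Y) (i : ℕ) (σ : Ω) (U : Finset Y) : ℝ :=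
  psi (cls S i σ) (fun _ => ((cls S i σ).card : ℝ)⁻¹) (S i) U

/-- a state: covered set `V` and martingale densities `ρ` -/
structure St (S : ℕ → Ω → Finset Y) (V : Finset Y) (ρ : ℕ → Ω → ℝ) : Prop where
  nn : ∀ i σ, 0 ≤ ρ i σ
  meas : ∀ i, Meas S (i + 1) (ρ i)
  one : ∀ i σ, cav S i σ (ρ i) = 1
  spr : ∀ i σ U, psi (cls S i σ) (kap S ρ i σ) (fun τ => S i τ \ V) U ≤ psi0 S i σ U

/-- resampling density of cohort `i` -/
def nr (p : Y → ℝ) (S : ℕ → Ω → Finset Y) (V : Finset Y) (ρ : ℕ → Ω → ℝ) (w : Finset Y)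
    (i : ℕ) (σ : Ω) : ℝ :=
  rr p (cls S i σ) (kap S ρ i σ) (fun τ => S i τ \ V) (S i σ \ V) w

/-- the new densities -/
def nrho (p : Y → ℝ) (S : ℕ → Ω → Finset Y) (V : Finset Y) (ρ : ℕ → Ω → ℝ) (w : Finset Y)
    (i : ℕ) (σ : Ω) : ℝ :=
  ρ i σ * nr p S V ρ w i σ

/-- reference density -/
def rb (p : Y → ℝ) (S : ℕ → Ω → Finset Y) (V w : Finset Y) (i : ℕ) (σ : Ω) : ℝ :=
  ip p (S i σ \ V) * psi0 S i σ (S i σ \ (V ∪ w))

/-- log ratio -/
def aa (p : Y → ℝ) (S : ℕ → Ω → Finset Y) (V : Finset Y) (ρ : ℕ → Ω → ℝ) (w : Finset Y)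
    (i : ℕ) (σ : Ω) : ℝ :=
  Real.log (nr p S V ρ w i σ / rb p S V w i σ)

/-- uncovered mass of cohort `i` -/
def ph (φ : Y → ℝ) (S : ℕ → Ω → Finset Y) (V : Finset Y) (i : ℕ) (σ : Ω) : ℝ :=
  ∑ x ∈ S i σ \ V, φ x

/-- linearised relative entropy bound -/
def Dom (S : ℕ → Ω → Finset Y) (ρ : ℕ → Ω → ℝ) (P : Ω → ℝ) (i : ℕ) (G : ℝ) : Prop :=
  ∀ f : Ω → ℝ, Meas S (i + 1) f →
    ∑ σ, P σ * f σ ≤ G + av (fun σ => (∏ m ∈ range (i + 1), ρ m σ) * Real.exp (f σ)) - 1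

/-- second moment budget of cohort `i` -/
def DB (p φ : Y → ℝ) (S : ℕ → Ω → Finset Y) (i : ℕ) (D : ℝ) : Prop :=
  ∀ σ, ∑ U ∈ (S i σ).powerset, (∏ x ∈ U, Real.exp (φ x) / p x) * psi0 S i σ U ≤ Real.exp D

/-- cohorts are pairwise disjoint -/
def Dj (S : ℕ → Ω → Finset Y) : Prop := ∀ σ m i, m ≠ i → Disjoint (S m σ) (S i σ)

end Chain

section Grp
variable {G X : Type*} [Group G] [MulAction G X] [DecidableEq X]

/-- `τ` fixes the set `J` together with the labelling `k` -/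
def Fx (k : X → ℕ) (J : Finset X) (τ : G) : Prop := ∀ e ∈ J, τ • e ∈ J ∧ k (τ • e) = k e

open Classical in
/-- the stabiliser of the first `i` labelled cohorts -/
def Gam [Fintype G] (nn : X → ℕ) (B : ℕ → Finset X) (i : ℕ) : Finset G :=
  univ.filter fun τ => ∀ m < i, Fx (fun e => m + 1 - nn e) (B m) τ

open Classical in
/-- closedness of the chain below cohort `i` -/
def Closed (G : Type*) [Group G] [MulAction G X] [Fintype G] (Q : ℝ) (nn : X → ℕ)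
    (B : ℕ → Finset X) (i : ℕ) (J : Finset X) : Prop :=
  (((Gam nn B i : Finset G).filter fun τ => Fx (fun e => i + 1 - nn e) J τ).card : ℝ) ≤
    (Gam nn B i : Finset G).card * ∏ e ∈ J, (Q * Real.exp 1 * Real.exp (-(4 ^ i / 4 ^ nn e)))

open Classical in
/-- the sparseness hypothesis -/
def Sparse (G : Type*) [Group G] [MulAction G X] [Fintype G] (H : Finset X) (Q : ℝ) : Prop :=
  ∀ J ⊆ H, (((univ : Finset G).filter fun τ => ∀ e ∈ J, τ • e ∈ J).card : ℝ) ≤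
    Fintype.card G * Q ^ J.card

/-- label of `e` in cohort `i` -/
def lab (R : ℕ) (nn : X → ℕ) (i : ℕ) (e : X) : Fin (R + 1) :=
  ⟨min (i + 1 - nn e) R, Nat.lt_succ_of_le (min_le_right _ _)⟩

/-- the labelled image of cohort `i` -/
def coh (R : ℕ) (nn : X → ℕ) (B : ℕ → Finset X) (i : ℕ) (σ : G) : Finset (X × Fin (R + 1)) :=
  (B i).image fun e => (σ • e, lab R nn i e)

end Grp

/-- relative probability of a label -/
def th {X : Type*} {R : ℕ} (y : X × Fin (R + 1)) : ℝ := ((2 : ℝ) ^ ((y.2 : ℕ) + 1))⁻¹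

/-- mass of a label -/
def phi {X : Type*} {R : ℕ} (y : X × Fin (R + 1)) : ℝ := (4 : ℝ) ^ (y.2 : ℕ) / 8

end

end Crest.Agent.R55
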