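import Crest.Agent.R55.PP
import Crest.Agent.R52G.Prob
import Crest.Prelude.Def_RandomGraph

/-! Reduction of the graph statement to a counting bound for finite group actions. -/

open Finset Crest.FinProb Crest.CombinatoricsR.RandomGraph

namespace Crest.Agent.R55.Glue

open Classical in
/-- group form of the counting bound, with constant `K` -/
def DKP (K : ℝ) : Prop :=
  ∀ (G : Type) [Group G] [Fintype G] (α : Type) [Fintype α] [DecidableEq α] [MulAction G α]
    (H : Finset α) (q : ℝ), 0 < q → q ≤ 1 →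
    (∀ I ⊆ H, ((Finset.univ.filter fun σ : G => I.image (σ • ·) = I).card : ℝ) ≤
      2 * q ^ I.card * Fintype.card G) →
    ∀ F ⊆ H, ((Finset.univ.filter fun σ : G => F.image (σ • ·) ⊆ H).card : ℝ) ≤
      2 * (K * q) ^ F.card * Fintype.card G

section group
variable {G : Type*} [Group G] [Fintype G] {α : Type*} [DecidableEq α] [MulAction G α]

omit [Fintype G] in
lemma image_smul_smul (σ τ : G) (I : Finset α) :
    (I.image (τ • ·)).image (σ • ·) = I.image ((σ * τ) • ·) := by
  rw [Finset.image_image]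
  congr 1
  ext x
  simp [mul_smul]

omit [Fintype G] in
lemma card_image_smul (σ : G) (I : Finset α) : (I.image (σ • ·)).card = I.card :=
  Finset.card_image_of_injective _ (MulAction.injective σ)

open Classical in
lemma orb_mul_stab (I : Finset α) :
    (Finset.univ.image fun σ : G => I.image (σ • ·)).card *
      (Finset.univ.filter fun σ : G => I.image (σ • ·) = I).card ≤ Fintype.card G := by
  rw [← Finset.card_univ, Finset.card_eq_sum_card_fiberwise (s := (Finset.univ : Finset G))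
    (f := fun σ : G => I.image (σ • ·)) (t := Finset.univ.image fun σ : G => I.image (σ • ·))
    (fun σ _ => Finset.mem_coe.2 (Finset.mem_image_of_mem _ (Finset.mem_univ σ))),
    ← smul_eq_mul, ← Finset.sum_const]
  refine Finset.sum_le_sum fun J hJ => ?_
  obtain ⟨τ, -, rfl⟩ := Finset.mem_image.1 hJ
  refine Finset.card_le_card_of_injOn (fun ρ => τ * ρ) ?_ (fun a _ b _ h => mul_left_cancel h)
  intro ρ hρ
  simp only [Finset.coe_filter, Finset.mem_univ, true_and, Set.mem_ofPred_eq] at hρ ⊢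
  rw [← image_smul_smul, hρ]

open Classical in
/-- the bound for subsets of `H` extends to all sets -/
lemma all_of_sub (H : Finset α) (r : ℝ) (hr : 0 ≤ r)
    (h : ∀ F ⊆ H, ((Finset.univ.filter fun σ : G => F.image (σ • ·) ⊆ H).card : ℝ) ≤
      2 * r ^ F.card * Fintype.card G) (T : Finset α) :
    ((Finset.univ.filter fun σ : G => T ⊆ H.image (σ • ·)).card : ℝ) ≤
      2 * r ^ T.card * Fintype.card G := by
  rcases (Finset.univ.filter fun σ : G => T ⊆ H.image (σ • ·)).eq_empty_or_nonempty with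
    h0 | ⟨τ, hτ⟩
  · rw [h0]; simp only [Finset.card_empty, Nat.cast_zero]; positivity
  have key : ∀ σ : G, T ⊆ H.image (σ • ·) → T.image (σ⁻¹ • ·) ⊆ H := by
    intro σ hσ x hx
    obtain ⟨y, hy, rfl⟩ := Finset.mem_image.1 hx
    obtain ⟨z, hz, rfl⟩ := Finset.mem_image.1 (hσ hy)
    simpa using hz
  have h1 := h (T.image (τ⁻¹ • ·)) (key τ (Finset.mem_filter.1 hτ).2)
  rw [card_image_smul] at h1
  refine le_trans ?_ h1
  refine Nat.cast_le.2 (Finset.card_le_card_of_injOn (fun σ => σ⁻¹ * τ) ?_ ?_)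
  · intro σ hσ
    simp only [Finset.coe_filter, Finset.mem_univ, true_and, Set.mem_ofPred_eq] at hσ ⊢
    rw [image_smul_smul, mul_inv_cancel_right]
    exact key σ hσ
  · intro a _ b _ hab
    exact inv_injective (mul_right_cancel hab)

open Classical in
lemma cover_cost (H : Finset α) (r : ℝ) (hr : 0 ≤ r)
    (h : ∀ F ⊆ H, ((Finset.univ.filter fun σ : G => F.image (σ • ·) ⊆ H).card : ℝ) ≤
      2 * r ^ F.card * Fintype.card G) (C : Finset (Finset α))
    (hC : ∀ S ∈ (Finset.univ.image fun σ : G => H.image (σ • ·)), ∃ T ∈ C, T ⊆ S) :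
    1 / 2 ≤ ∑ T ∈ C, r ^ T.card := by
  have h1 : (Finset.univ : Finset G) ⊆
      C.biUnion fun T => Finset.univ.filter fun σ : G => T ⊆ H.image (σ • ·) := by
    intro σ _
    obtain ⟨T, hT, hTS⟩ := hC _ (Finset.mem_image_of_mem _ (Finset.mem_univ σ))
    exact Finset.mem_biUnion.2 ⟨T, hT, by simpa using hTS⟩
  have h2 := (Finset.card_le_card h1).trans Finset.card_biUnion_le
  have h3 : (Fintype.card G : ℝ) ≤ ∑ T ∈ C, 2 * r ^ T.card * Fintype.card G := by
    refine le_trans ?_ (Finset.sum_le_sum fun T _ => all_of_sub H r hr h T)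
    rw [Finset.card_univ] at h2
    exact_mod_cast h2
  rw [← Finset.sum_mul, ← Finset.mul_sum] at h3
  have h4 : (0 : ℝ) < Fintype.card G := by exact_mod_cast Fintype.card_pos
  nlinarith

end group

variable {n : ℕ}

/-- relabelling of the edge slots -/
def act (σ : Equiv.Perm (Fin n)) (z : EdgeSlot n) : EdgeSlot n :=
  ⟨z.1.map σ, fun h => z.2 ((Sym2.isDiag_map σ.injective).1 h)⟩

/-- the action of the permutations on the edge slots -/
@[reducible] def edgeAction (n : ℕ) : MulAction (Equiv.Perm (Fin n)) (EdgeSlot n) where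
  smul := act
  one_smul z := Subtype.ext (by
    change z.1.map (1 : Equiv.Perm (Fin n)) = z.1
    simp [Equiv.Perm.coe_one])
  mul_smul σ τ z := Subtype.ext (by
    change z.1.map (σ * τ : Equiv.Perm (Fin n)) = (z.1.map τ).map σ
    simp [Sym2.map_map, Equiv.Perm.coe_mul])

lemma adj_graphOf (ω : EdgeSlot n → Bool) (z : EdgeSlot n) :
    z.1 ∈ (graphOf ω).edgeSet ↔ ω z = true := by
  obtain ⟨z, hz⟩ := z
  simp only [graphOf, SimpleGraph.edgeSet_fromEdgeSet, Set.mem_sdiff, Set.mem_ofPred_eq]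
  constructor
  · rintro ⟨⟨h, hω⟩, -⟩; exact hω
  · intro h; exact ⟨⟨hz, h⟩, hz⟩

variable {W : Type}

open Classical in
/-- the edges of `H` as slots -/
noncomputable def EH (H : SimpleGraph W) (ι : W ↪ Fin n) : Finset (EdgeSlot n) :=
  Finset.univ.filter fun z => ∃ a b, H.Adj a b ∧ z.1 = s(ι a, ι b)

lemma mem_EH {H : SimpleGraph W} {ι : W ↪ Fin n} {z : EdgeSlot n} :
    z ∈ EH H ι ↔ ∃ a b, H.Adj a b ∧ z.1 = s(ι a, ι b) := by
  unfold EH; simp

lemma card_EH [Fintype W] [DecidableEq W] (H : SimpleGraph W) [DecidableRel H.Adj] (ι : W ↪ Fin n) :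
    (EH H ι).card ≤ H.edgeFinset.card := by
  rw [← Finset.card_image_of_injective (EH H ι) Subtype.val_injective]
  refine le_trans (Finset.card_le_card ?_) (Finset.card_image_le (f := Sym2.map ι))
  intro z hz
  obtain ⟨w, hw, rfl⟩ := Finset.mem_image.1 hz
  obtain ⟨a, b, hab, e⟩ := mem_EH.1 hw
  exact Finset.mem_image.2 ⟨s(a, b), by simpa using hab, by rw [e]; simp⟩

/-- the subgraph of `H` spanned by a set of slots -/
def sub (H : SimpleGraph W) (ι : W ↪ Fin n) (I : Finset (EdgeSlot n)) (hI : I ⊆ EH H ι) :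
    H.Subgraph where
  verts := {a | ∃ b, ∃ z ∈ I, z.1 = s(ι a, ι b)}
  Adj a b := ∃ z ∈ I, z.1 = s(ι a, ι b)
  adj_sub := by
    rintro a b ⟨z, hz, e⟩
    obtain ⟨c, d, hcd, e'⟩ := mem_EH.1 (hI hz)
    rw [e] at e'
    rcases Sym2.eq_iff.1 e' with ⟨h1, h2⟩ | ⟨h1, h2⟩
    · rw [ι.injective h1, ι.injective h2]; exact hcd
    · rw [ι.injective h1, ι.injective h2]; exact hcd.symm
  edge_vert := fun {a b} h => ⟨b, h⟩
  symm := ⟨fun a b ⟨z, hz, e⟩ => ⟨z, hz, e.trans Sym2.eq_swap⟩⟩

open Classical in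
lemma copyCount_le [Finite W] (H : SimpleGraph W) (ι : W ↪ Fin n) (I : Finset (EdgeSlot n))
    (hI : I ⊆ EH H ι) (ω : EdgeSlot n → Bool) :
    (graphOf ω).copyCount (sub H ι I hI).coe ≤
      ((Finset.univ.image fun σ : Equiv.Perm (Fin n) => I.image (act σ)).filter
        fun J => ∀ z ∈ J, ω z = true).card := by
  unfold SimpleGraph.copyCount
  refine Finset.card_le_card_of_injOn
    (fun G' => Finset.univ.filter fun z : EdgeSlot n => z.1 ∈ G'.edgeSet) ?_ ?_
  · intro G' hG'
    simp only [Finset.coe_filter, Finset.mem_univ, true_and, Set.mem_ofPred_eq] at hG'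
    obtain ⟨e⟩ := hG'
    obtain ⟨σ, hσ⟩ := Equiv.Perm.exists_extending_pair
      (fun w : (sub H ι I hI).verts => ι w.1) (fun w => (e w).1)
      (ι.injective.comp Subtype.val_injective) (Subtype.val_injective.comp e.injective)
    simp only [Finset.coe_filter, Finset.mem_image, Finset.mem_univ, true_and,
      Set.mem_ofPred_eq, Finset.mem_filter]
    refine ⟨⟨σ, ?_⟩, fun z hz => (adj_graphOf ω z).1 (G'.edgeSet_subset hz)⟩
    ext z
    simp only [Finset.mem_image, Finset.mem_filter, Finset.mem_univ, true_and]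
    constructor
    · rintro ⟨y, hy, rfl⟩
      obtain ⟨a, b, -, hab⟩ := mem_EH.1 (hI hy)
      have ha : a ∈ (sub H ι I hI).verts := ⟨b, y, hy, hab⟩
      have hb : b ∈ (sub H ι I hI).verts := ⟨a, y, hy, hab.trans Sym2.eq_swap⟩
      have h1 : (sub H ι I hI).coe.Adj ⟨a, ha⟩ ⟨b, hb⟩ := ⟨y, hy, hab⟩
      have h2 : G'.Adj (e ⟨a, ha⟩).1 (e ⟨b, hb⟩).1 := e.map_rel_iff.2 h1
      change y.1.map σ ∈ G'.edgeSet
      rw [hab, Sym2.map_mk, hσ ⟨a, ha⟩, hσ ⟨b, hb⟩]
      exact h2
    · obtain ⟨z, hzd⟩ := z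
      induction z using Sym2.ind with
      | _ u v =>
        intro huv
        have huv' : G'.Adj u v := huv
        obtain ⟨a, ha⟩ := e.surjective ⟨u, G'.edge_vert huv'⟩
        obtain ⟨b, hb⟩ := e.surjective ⟨v, G'.edge_vert huv'.symm⟩
        have h1 : G'.coe.Adj (e a) (e b) := by rw [ha, hb]; exact huv'
        obtain ⟨y, hy, hy'⟩ : (sub H ι I hI).coe.Adj a b := e.map_rel_iff.1 h1
        refine ⟨y, hy, Subtype.ext ?_⟩
        change y.1.map σ = s(u, v)
        rw [hy', Sym2.map_mk, hσ a, hσ b, ha, hb]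
  · intro G₁ h₁ G₂ h₂ h
    simp only [Finset.coe_filter, Finset.mem_univ, true_and, Set.mem_ofPred_eq] at h₁ h₂
    have hadj : ∀ u v, G₁.Adj u v ↔ G₂.Adj u v := by
      intro u v
      have := fun hd : ¬ (s(u, v) : Sym2 (Fin n)).IsDiag =>
        Finset.ext_iff.1 h (⟨s(u, v), hd⟩ : EdgeSlot n)
      simp only [Finset.mem_filter, Finset.mem_univ, true_and,
        SimpleGraph.Subgraph.mem_edgeSet] at this
      constructor
      · intro huv; exact (this (by simpa using huv.ne)).1 huv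
      · intro huv; exact (this (by simpa using huv.ne)).2 huv
    have hv : ∀ G' : (graphOf ω).Subgraph, Nonempty ((sub H ι I hI).coe ≃g G'.coe) →
        ∀ u, u ∈ G'.verts ↔ ∃ v, G'.Adj u v := by
      rintro G' ⟨e⟩ u
      refine ⟨fun hu => ?_, fun ⟨v, hv⟩ => G'.edge_vert hv⟩
      obtain ⟨⟨a, b, y, hy, hab⟩, ha⟩ := e.surjective ⟨u, hu⟩
      have hb : b ∈ (sub H ι I hI).verts := ⟨a, y, hy, hab.trans Sym2.eq_swap⟩
      have h1 : (sub H ι I hI).coe.Adj ⟨a, b, y, hy, hab⟩ ⟨b, hb⟩ := ⟨y, hy, hab⟩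
      have h2 : G'.coe.Adj (e ⟨a, b, y, hy, hab⟩) (e ⟨b, hb⟩) := e.map_rel_iff.2 h1
      rw [ha] at h2
      exact ⟨_, h2⟩
    ext u v
    · rw [hv G₁ h₁, hv G₂ h₂]; simp only [hadj]
    · exact hadj u v

open Classical in
lemma expect_le [Finite W] (H : SimpleGraph W) (ι : W ↪ Fin n) (I : Finset (EdgeSlot n))
    (hI : I ⊆ EH H ι) {p : ℝ} (h0 : 0 ≤ p) (h1 : p ≤ 1) :
    gnpExpect n p (fun G => (G.copyCount (sub H ι I hI).coe : ℝ)) ≤
      (Finset.univ.image fun σ : Equiv.Perm (Fin n) => I.image (act σ)).card * p ^ I.card := by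
  have e1 : gnpExpect n p (fun G => (G.copyCount (sub H ι I hI).coe : ℝ)) =
      R52G.Ex p (fun ω : EdgeSlot n → Bool => ((graphOf ω).copyCount (sub H ι I hI).coe : ℝ)) := by
    unfold gnpExpect R52G.Ex
    congr
  rw [e1]
  refine (R52G.Ex_mono h0 h1 (g := fun ω => ∑ J ∈ (Finset.univ.image
    fun σ : Equiv.Perm (Fin n) => I.image (act σ)), ∏ z ∈ J, (if ω z then (1 : ℝ) else 0))
    fun ω => ?_).trans ?_
  · refine (Nat.cast_le.2 (copyCount_le H ι I hI ω)).trans ?_
    rw [Finset.card_filter]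
    push_cast
    refine Finset.sum_le_sum fun J _ => ?_
    split_ifs with hJ
    · exact le_of_eq (Finset.prod_eq_one fun z hz => by simp [hJ z hz]).symm
    · exact Finset.prod_nonneg fun z _ => by split_ifs <;> norm_num
  · rw [R52G.Ex_sum, ← nsmul_eq_mul, ← Finset.sum_const]
    refine Finset.sum_le_sum fun J hJ => le_of_eq ?_
    rw [R52G.Ex_prod_finset p J (fun _ b => if b then (1 : ℝ) else 0)]
    obtain ⟨σ, -, rfl⟩ := Finset.mem_image.1 hJ
    let _ := edgeAction n
    have := card_image_smul σ I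
    simp only [if_true, mul_one, Bool.false_eq_true, if_false, mul_zero, add_zero,
      Finset.prod_const]
    congr 1

theorem glue {K : ℝ} (hK0 : 0 ≤ K) (hK1 : K ≤ 64 * Real.exp 50) (hK : DKP K)
    (n : ℕ) (W : Type) [Fintype W] [DecidableEq W] (H : SimpleGraph W)
    [DecidableRel H.Adj] (hW : Fintype.card W ≤ n) (hH : 1 ≤ H.edgeFinset.card)
    (p : ℝ) (hp0 : 0 ≤ p) (hp1 : p ≤ 1)
    (hE : ∀ F : H.Subgraph, (1 : ℝ) / 2 ≤
      gnpExpect n p (fun G => (G.copyCount F.coe : ℝ))) :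
    (1 : ℝ) / 2 ≤ gnpProb n
      (min 1 (2048 * Real.exp 50 * p * (1 + Real.logb 2 (H.edgeFinset.card : ℝ))))
      {G | H.IsContained G} := by
  classical
  obtain ⟨ι⟩ : Nonempty (W ↪ Fin n) := Function.Embedding.nonempty_of_card_le (by simpa using hW)
  let _ := edgeAction n
  have horb : ∀ I ⊆ EH H ι, (1 : ℝ) / 2 ≤
      (Finset.univ.image fun σ : Equiv.Perm (Fin n) => I.image (σ • ·)).card * p ^ I.card :=
    fun I hI => (hE (sub H ι I hI)).trans (expect_le H ι I hI hp0 hp1)
  have hppos : 0 < p := by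
    rcases eq_or_lt_of_le hp0 with rfl | h
    · exfalso
      obtain ⟨e, he⟩ := Finset.card_pos.1 hH
      induction e using Sym2.ind with
      | _ a b =>
        have hab : H.Adj a b := by simpa using he
        have hz : (⟨s(ι a, ι b), by simpa using hab.ne⟩ : EdgeSlot n) ∈ EH H ι :=
          mem_EH.2 ⟨a, b, hab, rfl⟩
        have := horb {_} (Finset.singleton_subset_iff.2 hz)
        norm_num at this
    · exact h
  have hstab : ∀ I ⊆ EH H ι,
      ((Finset.univ.filter fun σ : Equiv.Perm (Fin n) => I.image (σ • ·) = I).card : ℝ) ≤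
        2 * p ^ I.card * Fintype.card (Equiv.Perm (Fin n)) := by
    intro I hI
    have h1 := horb I hI
    have h2 : ((Finset.univ.image fun σ : Equiv.Perm (Fin n) => I.image (σ • ·)).card : ℝ) *
        (Finset.univ.filter fun σ : Equiv.Perm (Fin n) => I.image (σ • ·) = I).card ≤
        Fintype.card (Equiv.Perm (Fin n)) := by
      exact_mod_cast orb_mul_stab (G := Equiv.Perm (Fin n)) I
    have h3 : (0 : ℝ) ≤
        (Finset.univ.filter fun σ : Equiv.Perm (Fin n) => I.image (σ • ·) = I).card :=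
      Nat.cast_nonneg _
    have h4 : 0 ≤ p ^ I.card := by positivity
    nlinarith [mul_le_mul_of_nonneg_left h1 h3, mul_le_mul_of_nonneg_left h2 h4]
  have hD := hK (Equiv.Perm (Fin n)) (EdgeSlot n) (EH H ι) p hppos hp1 (by convert hstab)
  have hl : (1 : ℝ) ≤ H.edgeFinset.card := by exact_mod_cast hH
  have hlog : 0 ≤ Real.logb 2 (H.edgeFinset.card : ℝ) := Real.logb_nonneg (by norm_num) hl
  set P := min 1 (2048 * Real.exp 50 * p * (1 + Real.logb 2 (H.edgeFinset.card : ℝ))) with hP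
  have hP1 : P ≤ 1 := min_le_left _ _
  have hP0 : 0 ≤ P := le_min (by norm_num) (by positivity)
  have main := parkPham
    (Finset.univ.image fun σ : Equiv.Perm (Fin n) => (EH H ι).image (σ • ·))
    H.edgeFinset.card hH (by
      intro S hS
      obtain ⟨σ, -, rfl⟩ := Finset.mem_image.1 hS
      exact Finset.card_image_le.trans (card_EH H ι))
    (K * p) (by positivity)
    (fun C hC => cover_cost (G := Equiv.Perm (Fin n)) (EH H ι) (K * p) (by positivity)
      (by convert hD) C (by convert hC)) P hP1 (by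
        refine min_le_min le_rfl (mul_le_mul_of_nonneg_right ?_ (by linarith))
        nlinarith)
  refine main.trans ?_
  unfold gnpProb
  rw [R52G.bernoulliProb_eq, R52G.bernoulliProb_eq]
  refine R52G.Ex_mono hP0 hP1 fun ω => R52G.ind_mono ?_
  rintro ⟨S, hS, hω⟩
  obtain ⟨σ, -, rfl⟩ := Finset.mem_image.1 hS
  refine ⟨⟨⟨fun w => σ (ι w), fun {a b} hab => ?_⟩, σ.injective.comp ι.injective⟩⟩
  have hz : (⟨s(ι a, ι b), by simpa using hab.ne⟩ : EdgeSlot n) ∈ EH H ι :=
    mem_EH.2 ⟨a, b, hab, rfl⟩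
  have := (adj_graphOf ω _).2 (hω _ (Finset.mem_image_of_mem _ hz))
  exact this

end Crest.Agent.R55.Glue
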