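import Crest.Agent.R55.DKP
import Crest.Agent.R55.Glue

open Finset

namespace Crest.Agent.R55

theorem dkp_glue : Glue.DKP (2 ^ 35 * Real.exp 1) := by
  classical
  intro G _ _ α _ _ _ H q hq0 _ hH F _
  have hS : Sparse G H (2 * q) := by
    intro J hJ
    rcases J.eq_empty_or_nonempty with rfl | hne
    · simp
    have h1 := hH J hJ
    have h2 : ((univ : Finset G).filter fun τ => ∀ e ∈ J, τ • e ∈ J) =
        (univ : Finset G).filter fun σ : G => J.image (σ • ·) = J := by
      refine Finset.filter_congr fun τ _ => ⟨fun h => ?_, fun h e he => ?_⟩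
      · refine Finset.eq_of_subset_of_card_le (fun x hx => ?_) (Glue.card_image_smul τ J).ge
        obtain ⟨y, hy, rfl⟩ := Finset.mem_image.1 hx
        exact h y hy
      · rw [← h]; exact Finset.mem_image_of_mem _ he
    have h3 : (2 : ℝ) ≤ 2 ^ J.card := by
      have := pow_le_pow_right₀ (show (1 : ℝ) ≤ 2 by norm_num) (Finset.card_pos.2 hne)
      simpa using this
    have h4 : (0 : ℝ) ≤ q ^ J.card * Fintype.card G := by positivity
    calc _ = (((univ : Finset G).filter fun σ : G => J.image (σ • ·) = J).card : ℝ) := by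
          convert congrArg (fun s : Finset G => (s.card : ℝ)) h2
      _ ≤ 2 * q ^ J.card * Fintype.card G := by convert h1
      _ ≤ Fintype.card G * (2 * q) ^ J.card := by rw [mul_pow]; nlinarith
  have h := dkp (G := G) (by positivity : 0 < 2 * q) hS F
  have h2 : ((univ : Finset G).filter fun σ : G => F.image (σ • ·) ⊆ H) =
      (univ : Finset G).filter fun τ => ∀ x ∈ F, τ • x ∈ H :=
    Finset.filter_congr fun τ _ => Finset.image_subset_iff
  have h3 : (2 ^ 34 * Real.exp 1 * (2 * q)) = 2 ^ 35 * Real.exp 1 * q := by ring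
  rw [h3] at h
  have h4 : (0 : ℝ) ≤ Fintype.card G * (2 ^ 35 * Real.exp 1 * q) ^ F.card := by positivity
  calc _ = (((univ : Finset G).filter fun τ => ∀ x ∈ F, τ • x ∈ H).card : ℝ) := by
        convert congrArg (fun s : Finset G => (s.card : ℝ)) h2
    _ ≤ Fintype.card G * (2 ^ 35 * Real.exp 1 * q) ^ F.card := by convert h
    _ ≤ _ := by nlinarith

lemma const_le : (2 : ℝ) ^ 35 * Real.exp 1 ≤ 64 * Real.exp 50 := by
  have h1 : (2 : ℝ) ≤ Real.exp 1 := by
    have := Real.add_one_le_exp (1 : ℝ); linarith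
  have h2 : Real.exp 50 = Real.exp 1 ^ 49 * Real.exp 1 := by
    rw [← pow_succ, ← Real.exp_nat_mul]; norm_num
  have h3 : (2 : ℝ) ^ 49 ≤ Real.exp 1 ^ 49 := pow_le_pow_left₀ (by norm_num) h1 _
  rw [h2]
  have h4 : 0 < Real.exp 1 := Real.exp_pos 1
  nlinarith

end Crest.Agent.R55
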