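import Crest.Agent.R55.Bern

set_option autoImplicit false
open Finset

namespace Crest.Agent.R55

variable {Y : Type*} [Fintype Y] [DecidableEq Y] {p : Y → ℝ}

/-- Lemma H -/
lemma lemH (hp : Pr p) (T : Finset Y) (ψ : Finset Y → ℝ) (hψ : ∀ U, 0 ≤ ψ U) (φ : Y → ℝ)
    (g : Finset Y → ℝ) (hg : ∀ w, 0 ≤ g w) (hinv : ∀ w, ∀ U ⊆ T, g (w ∪ U) = g w) :
    Ex p (fun w => ip p T * ψ (T \ w) * Real.exp (∑ x ∈ T \ w, φ x) * g w) ≤
      (∑ U ∈ T.powerset, (∏ x ∈ U, Real.exp (φ x) / p x) * ψ U) * Ex p g := by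
  have h0 : ∀ x, 0 ≤ p x := fun x => (hp x).1.le
  have h1 : ∀ x, p x ≤ 1 := fun x => (hp x).2
  have hc : ∀ U : Finset Y, 0 ≤ (∏ x ∈ U, Real.exp (φ x) / p x) * ψ U := fun U =>
    mul_nonneg (prod_nonneg fun x _ => div_nonneg (Real.exp_pos _).le (h0 x)) (hψ U)
  have hpt : ∀ w, ip p T * ψ (T \ w) * Real.exp (∑ x ∈ T \ w, φ x) * g w ≤
      ∑ U ∈ T.powerset, ((∏ x ∈ U, Real.exp (φ x) / p x) * ψ U) *
        (ip p (T \ U) * ind (T \ U ⊆ w) * g w) := by
    intro w
    have hm : T \ w ∈ T.powerset := mem_powerset.mpr sdiff_subset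
    refine le_trans (le_of_eq ?_) (single_le_sum (f := fun U =>
      ((∏ x ∈ U, Real.exp (φ x) / p x) * ψ U) * (ip p (T \ U) * ind (T \ U ⊆ w) * g w))
      (fun U _ => mul_nonneg (hc U) (mul_nonneg (mul_nonneg (ip_pos hp _).le (ind_nonneg _))
        (hg w))) hm)
    have hsub : T \ (T \ w) ⊆ w := by
      intro x hx
      simp only [mem_sdiff, not_and, not_not] at hx
      exact hx.2 hx.1
    have hip : ip p T = ip p (T \ (T \ w)) * ip p (T \ w) := by
      unfold ip
      rw [prod_sdiff sdiff_subset]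
    have hpr : ∏ x ∈ T \ w, Real.exp (φ x) / p x =
        Real.exp (∑ x ∈ T \ w, φ x) * ip p (T \ w) := by
      unfold ip
      rw [Real.exp_sum, ← prod_mul_distrib]
      exact prod_congr rfl fun x _ => div_eq_mul_inv _ _
    rw [ind_true hsub, hpr, hip]
    ring
  refine (Ex_mono h0 h1 hpt).trans (le_of_eq ?_)
  rw [Ex_sum, sum_mul]
  refine sum_congr rfl fun U _ => ?_
  rw [Ex_const_mul, ← plant hp (T \ U) g]
  congr 2
  funext w
  exact hinv w _ sdiff_subset

/-- product form of Lemma H over pairwise disjoint sets -/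
lemma prodH (hp : Pr p) (φ : Y → ℝ) (T : ℕ → Finset Y) (ψ : ℕ → Finset Y → ℝ)
    (hψ : ∀ m U, 0 ≤ ψ m U) (D : ℕ → ℝ) (hT : ∀ m m', m ≠ m' → Disjoint (T m) (T m')) (i : ℕ)
    (hD : ∀ m < i, ∑ U ∈ (T m).powerset, (∏ x ∈ U, Real.exp (φ x) / p x) * ψ m U ≤ Real.exp (D m))
    (g : Finset Y → ℝ) (hg : ∀ w, 0 ≤ g w) (hinv : ∀ m < i, ∀ w, ∀ U ⊆ T m, g (w ∪ U) = g w) :
    Ex p (fun w => (∏ m ∈ range i,
      ip p (T m) * ψ m (T m \ w) * Real.exp (∑ x ∈ T m \ w, φ x - D m)) * g w) ≤ Ex p g := by
  induction i with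
  | zero => simp
  | succ i ih =>
    have h0 : ∀ x, 0 ≤ p x := fun x => (hp x).1.le
    have h1 : ∀ x, p x ≤ 1 := fun x => (hp x).2
    have ih' := ih (fun m hm => hD m (Nat.lt_succ_of_lt hm))
      (fun m hm => hinv m (Nat.lt_succ_of_lt hm))
    set g' : Finset Y → ℝ := fun w => (∏ m ∈ range i,
      ip p (T m) * ψ m (T m \ w) * Real.exp (∑ x ∈ T m \ w, φ x - D m)) * g w with hg'
    have hg0 : ∀ w, 0 ≤ g' w := fun w =>
      mul_nonneg (prod_nonneg fun m _ => mul_nonneg (mul_nonneg (ip_pos hp _).le (hψ _ _))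
        (Real.exp_pos _).le) (hg w)
    have hinv' : ∀ w, ∀ U ⊆ T i, g' (w ∪ U) = g' w := by
      intro w U hU
      simp only [hg']
      rw [hinv i (Nat.lt_succ_self i) w U hU]
      congr 1
      refine prod_congr rfl fun m hm => ?_
      have hd : Disjoint (T m) (T i) := hT m i (ne_of_lt (mem_range.mp hm))
      have he : T m \ (w ∪ U) = T m \ w := by
        ext x
        simp only [mem_sdiff, mem_union, not_or]
        exact ⟨fun h => ⟨h.1, h.2.1⟩, fun h => ⟨h.1, h.2, fun hx =>
          disjoint_left.mp hd h.1 (hU hx)⟩⟩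
      rw [he]
    have hH := lemH hp (T i) (ψ i) (hψ i) φ g' hg0 hinv'
    have he : (fun w => (∏ m ∈ range (i + 1),
        ip p (T m) * ψ m (T m \ w) * Real.exp (∑ x ∈ T m \ w, φ x - D m)) * g w) =
        fun w => Real.exp (-D i) *
          (ip p (T i) * ψ i (T i \ w) * Real.exp (∑ x ∈ T i \ w, φ x) * g' w) := by
      funext w
      rw [prod_range_succ, sub_eq_add_neg (∑ x ∈ T i \ w, φ x), Real.exp_add]
      simp only [hg']
      ring
    rw [he, Ex_const_mul]
    have hE : 0 ≤ Ex p g' := Ex_nonneg h0 h1 hg0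
    calc Real.exp (-D i) * Ex p (fun w =>
          ip p (T i) * ψ i (T i \ w) * Real.exp (∑ x ∈ T i \ w, φ x) * g' w)
        ≤ Real.exp (-D i) * (Real.exp (D i) * Ex p g') :=
          mul_le_mul_of_nonneg_left (hH.trans
            (mul_le_mul_of_nonneg_right (hD i (Nat.lt_succ_self i)) hE)) (Real.exp_pos _).le
      _ = Ex p g' := by rw [← mul_assoc, ← Real.exp_add]; simp
      _ ≤ Ex p g := ih'

/-- projection lemma -/
lemma projH {X : Type*} [DecidableEq X] (hp : Pr p) (π : Y → X) {pb η : ℝ} (hη : 0 ≤ η)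
    (hπ : ∀ x, ∑ y ∈ univ.filter (fun y => π y = x), p y ≤ pb) (a : X → ℝ) (ha : ∀ x, 0 ≤ a x)
    (V : Finset Y) (F : Finset X) :
    Ex p (fun w => ∏ x ∈ F, a x * (if x ∈ (V ∪ w).image π then 1 else η)) ≤
      ∏ x ∈ F, a x * (if x ∈ V.image π then 1 else pb + η) := by
  have h0 : ∀ x, 0 ≤ p x := fun x => (hp x).1.le
  have h1 : ∀ x, p x ≤ 1 := fun x => (hp x).2
  induction F using Finset.induction_on with
  | empty => simp [Ex_const]
  | insert x F hx ih =>
    set G : Finset Y → ℝ := fun w =>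
      ∏ x ∈ F, a x * (if x ∈ (V ∪ w).image π then 1 else η) with hG
    have hG0 : ∀ w, 0 ≤ G w := fun w =>
      prod_nonneg fun x _ => mul_nonneg (ha x) (by split_ifs <;> simp [hη])
    have hE : 0 ≤ Ex p G := Ex_nonneg h0 h1 hG0
    have hpb : 0 ≤ pb := le_trans (sum_nonneg fun y _ => h0 y) (hπ x)
    rw [prod_insert hx]
    have he : (fun w => ∏ x ∈ insert x F, a x * (if x ∈ (V ∪ w).image π then 1 else η)) =
        fun w => a x * ((if x ∈ (V ∪ w).image π then 1 else η) * G w) := by
      funext w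
      rw [prod_insert hx, mul_assoc]
    rw [he, Ex_const_mul, mul_assoc]
    refine mul_le_mul_of_nonneg_left ?_ (ha x)
    by_cases hV : x ∈ V.image π
    · have h2 : (fun w => (if x ∈ (V ∪ w).image π then 1 else η) * G w) = G := by
        funext w
        rw [if_pos (image_subset_image subset_union_left hV), one_mul]
      rw [h2, if_pos hV, one_mul]
      exact ih
    · rw [if_neg hV]
      have hpt : ∀ w, (if x ∈ (V ∪ w).image π then 1 else η) * G w ≤
          ∑ y ∈ univ.filter (fun y => π y = x), p y * (ip p {y} * ind ({y} ⊆ w) * G w)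
            + η * G w := by
        intro w
        have hs : ∀ y, p y * (ip p {y} * ind ({y} ⊆ w) * G w) = ind ({y} ⊆ w) * G w := by
          intro y
          have := (hp y).1.ne'
          simp only [ip, prod_singleton]
          field_simp
        simp only [hs]
        have hn : 0 ≤ ∑ y ∈ univ.filter (fun y => π y = x), ind ({y} ⊆ w) * G w :=
          sum_nonneg fun y _ => mul_nonneg (ind_nonneg _) (hG0 w)
        split_ifs with hw
        · obtain ⟨y, hy, hyx⟩ := mem_image.mp hw
          have hyw : y ∈ w := by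
            rcases mem_union.mp hy with h | h
            · exact absurd (mem_image.mpr ⟨y, h, hyx⟩) hV
            · exact h
          have h3 := single_le_sum (f := fun y => ind ({y} ⊆ w) * G w)
            (s := univ.filter (fun y => π y = x))
            (fun y _ => mul_nonneg (ind_nonneg _) (hG0 w)) (a := y) (by simp [hyx])
          rw [ind_true (singleton_subset_iff.mpr hyw)] at h3
          have := mul_nonneg hη (hG0 w)
          linarith
        · linarith
      refine (Ex_mono h0 h1 hpt).trans ?_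
      rw [Ex_add, Ex_sum, Ex_const_mul]
      have h4 : ∀ y ∈ univ.filter (fun y => π y = x),
          Ex p (fun w => p y * (ip p {y} * ind ({y} ⊆ w) * G w)) = p y * Ex p G := by
        intro y hy
        have hyx : π y = x := (mem_filter.mp hy).2
        rw [Ex_const_mul, ← plant hp {y} G]
        congr 2
        funext w
        simp only [hG]
        refine prod_congr rfl fun x' hx' => ?_
        have hne : π y ≠ x' := by
          rw [hyx]
          rintro rfl
          exact hx hx'
        have : x' ∈ (V ∪ (w ∪ {y})).image π ↔ x' ∈ (V ∪ w).image π := by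
          rw [← union_assoc, image_union, image_singleton, mem_union, mem_singleton]
          exact ⟨fun h => h.resolve_right fun h' => hne h'.symm, Or.inl⟩
        simp only [this]
      rw [sum_congr rfl h4, ← sum_mul, ← add_mul]
      exact mul_le_mul (by linarith [hπ x]) ih hE (by linarith)

end Crest.Agent.R55
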