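import Crest.Agent.R55.Tower
import Crest.Agent.R55.HLem

set_option autoImplicit false
open Finset

namespace Crest.Agent.R55

variable {Y Ω : Type*} [Fintype Y] [DecidableEq Y] [Fintype Ω] {S : ℕ → Ω → Finset Y}
  {V : Finset Y} {ρ : ℕ → Ω → ℝ} {p φ : Y → ℝ}

namespace KeyX

omit [Fintype Y] in
lemma kap_nonneg (h : St S V ρ) (i : ℕ) (σ : Ω) : ∀ τ ∈ cls S i σ, 0 ≤ kap S ρ i σ τ :=
  fun τ _ => mul_nonneg (inv_nonneg.2 (Nat.cast_nonneg _)) (h.nn i τ)

omit [Fintype Y] in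
lemma sd (A w : Finset Y) : (A \ V) \ w = A \ (V ∪ w) := by
  ext x; simp only [mem_sdiff, mem_union]; tauto

omit [Fintype Y] in
lemma rb_nonneg (hp : Pr p) (w : Finset Y) (i : ℕ) (σ : Ω) : 0 ≤ rb p S V w i σ :=
  mul_nonneg (ip_pos hp _).le (psi0_nonneg _ _ _)

omit [Fintype Y] in
lemma lr (hp : Pr p) (h : St S V ρ) (w : Finset Y) (i : ℕ) (σ : Ω) :
    nr p S V ρ w i σ * Real.exp (-(aa p S V ρ w i σ)) ≤ rb p S V w i σ ∧
      nr p S V ρ w i σ * Real.exp (aa p S V ρ w i σ) ≤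
        r2 p (cls S i σ) (kap S ρ i σ) (fun τ => S i τ \ V) (S i σ \ V) w := by
  refine log_ratio (rr_nonneg hp (kap_nonneg h i σ) _ _) (rb_nonneg hp _ _ _)
    (r2_nonneg hp (kap_nonneg h i σ) _ _) ?_
  refine (rr_sq_le hp (kap_nonneg h i σ) _ _).trans ?_
  refine mul_le_mul_of_nonneg_right ?_ (r2_nonneg hp (kap_nonneg h i σ) _ _)
  unfold rb
  refine mul_le_mul_of_nonneg_left ?_ (ip_pos hp _).le
  rw [sd]
  exact h.spr i σ _

/-- the factor of cohort `m` -/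
noncomputable def qq (p φ : Y → ℝ) (S : ℕ → Ω → Finset Y) (V : Finset Y) (D : ℕ → ℝ)
    (w : Finset Y) (m : ℕ) (σ : Ω) : ℝ :=
  ip p (S m σ \ V) * psi0 S m σ ((S m σ \ V) \ w) *
    Real.exp (∑ x ∈ (S m σ \ V) \ w, φ x - D m)

omit [Fintype Y] in
lemma qq_nonneg (hp : Pr p) (D : ℕ → ℝ) (w : Finset Y) (m : ℕ) (σ : Ω) :
    0 ≤ qq p φ S V D w m σ :=
  mul_nonneg (mul_nonneg (ip_pos hp _).le (psi0_nonneg _ _ _)) (Real.exp_pos _).le

omit [Fintype Y] in
lemma fac_le (hp : Pr p) (h : St S V ρ) (D : ℕ → ℝ) (w : Finset Y) (m : ℕ) (σ : Ω) :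
    nrho p S V ρ w m σ * Real.exp (ph φ S (V ∪ w) m σ - aa p S V ρ w m σ - D m) ≤
      ρ m σ * qq p φ S V D w m σ := by
  have h1 := (lr hp h w m σ).1
  have e : ph φ S (V ∪ w) m σ - aa p S V ρ w m σ - D m =
      -(aa p S V ρ w m σ) + (∑ x ∈ (S m σ \ V) \ w, φ x - D m) := by
    unfold ph; rw [sd]; ring
  rw [e, Real.exp_add]
  unfold nrho qq
  rw [mul_assoc]
  refine mul_le_mul_of_nonneg_left ?_ (h.nn m σ)
  rw [← mul_assoc]
  refine mul_le_mul_of_nonneg_right ?_ (Real.exp_pos _).le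
  rw [sd]
  exact h1

omit [Fintype Y] in
lemma prod_le (hp : Pr p) (h : St S V ρ) (D : ℕ → ℝ) (w : Finset Y) (i : ℕ) (σ : Ω) :
    (∏ m ∈ range i, nrho p S V ρ w m σ) *
      Real.exp (∑ m ∈ range i, (ph φ S (V ∪ w) m σ - aa p S V ρ w m σ - D m)) ≤
      (∏ m ∈ range i, ρ m σ) * ∏ m ∈ range i, qq p φ S V D w m σ := by
  rw [Real.exp_sum, ← prod_mul_distrib, ← prod_mul_distrib]
  refine prod_le_prod (fun m _ => ?_) fun m _ => fac_le hp h D w m σ
  exact mul_nonneg (mul_nonneg (h.nn m σ) (rr_nonneg hp (kap_nonneg h m σ) _ _))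
    (Real.exp_pos _).le

lemma Ex_av (g : Finset Y → Ω → ℝ) :
    Ex p (fun w => av (fun σ => g w σ)) = av (fun σ => Ex p (fun w => g w σ)) := by
  unfold av
  rw [Ex_const_mul, Ex_sum p univ (fun σ w => g w σ)]

omit [Fintype Y] [DecidableEq Y] in
lemma av_mono {f g : Ω → ℝ} (h : ∀ σ, f σ ≤ g σ) : av f ≤ av g :=
  mul_le_mul_of_nonneg_left (sum_le_sum fun σ _ => h σ) (inv_nonneg.2 (Nat.cast_nonneg _))

lemma Ex_qq (hp : Pr p) (hS : Dj S) (D : ℕ → ℝ) (i : ℕ) (hD : ∀ m < i, DB p φ S m (D m))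
    (σ : Ω) (g : Finset Y → ℝ) (hg : ∀ w, 0 ≤ g w)
    (hinv : ∀ m < i, ∀ w, ∀ U ⊆ S m σ \ V, g (w ∪ U) = g w) :
    Ex p (fun w => (∏ m ∈ range i, qq p φ S V D w m σ) * g w) ≤ Ex p g := by
  refine prodH hp φ (fun m => S m σ \ V) (fun m => psi0 S m σ) (fun m U => psi0_nonneg _ _ _) D
    (fun m m' hm => (hS σ m m' hm).mono sdiff_subset sdiff_subset) i (fun m hm => ?_) g hg hinv
  refine le_trans ?_ (hD m hm σ)
  refine sum_le_sum_of_subset_of_nonneg (powerset_mono.2 sdiff_subset) fun U _ _ => ?_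
  exact mul_nonneg (prod_nonneg fun x _ => div_nonneg (Real.exp_pos _).le (hp x).1.le)
    (psi0_nonneg _ _ _)

omit [Fintype Y] in
lemma meas_F (h : St S V ρ) (D : ℕ → ℝ) (w : Finset Y) (i : ℕ) :
    Meas S i (fun σ => (∏ m ∈ range i, ρ m σ) * ∏ m ∈ range i, qq p φ S V D w m σ) := by
  intro σ τ hστ
  have e1 : ∀ m ∈ range i, ρ m τ = ρ m σ := fun m hm =>
    h.meas m σ τ fun k hk => hστ k (lt_of_lt_of_le hk (mem_range.1 hm))
  have e2 : ∀ m ∈ range i, qq p φ S V D w m τ = qq p φ S V D w m σ := by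
    intro m hm
    have hm' := mem_range.1 hm
    unfold qq psi0
    rw [hστ m hm', cls_eq (i := m) (σ := σ) (τ := τ) fun k hk => hστ k (hk.trans hm')]
  show _ * _ = _ * _
  rw [prod_congr rfl e1, prod_congr rfl e2]

omit [Fintype Y] in
lemma cav_r2 (w : Finset Y) (i : ℕ) (σ : Ω) :
    cav S i σ (fun τ => ρ i τ *
      r2 p (cls S i τ) (kap S ρ i τ) (fun τ' => S i τ' \ V) (S i τ \ V) w) =
      gb p (cls S i σ) (kap S ρ i σ) (fun τ' => S i τ' \ V) w := by
  rw [← sum_r2]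
  unfold cav
  refine sum_congr rfl fun τ hτ => ?_
  have e : cls S i τ = cls S i σ := cls_eq (mem_cls.1 hτ)
  have e2 : kap S ρ i τ = kap S ρ i σ := by
    funext x; unfold kap; rw [e]
  beta_reduce
  rw [e, e2, ← mul_assoc]
  rfl

end KeyX

open KeyX in
/-- exponential moment for the log ratio of cohort `i` -/
lemma keyA [Nonempty Ω] (hp : Pr p) (hS : Dj S) (h : St S V ρ) (D : ℕ → ℝ) (i : ℕ)
    (hD : ∀ m < i, DB p φ S m (D m)) :
    Ex p (fun w => av (fun σ => (∏ m ∈ range (i + 1), nrho p S V ρ w m σ) *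
      Real.exp (aa p S V ρ w i σ +
        ∑ m ∈ range i, (ph φ S (V ∪ w) m σ - aa p S V ρ w m σ - D m)))) ≤ 1 := by
  have h0 : ∀ x, 0 ≤ p x := fun x => (hp x).1.le
  have h1 : ∀ x, p x ≤ 1 := fun x => (hp x).2
  have hρ : ∀ σ, 0 ≤ ∏ m ∈ range i, ρ m σ := fun σ => prod_nonneg fun m _ => h.nn m σ
  calc _ ≤ Ex p (fun w => av (fun σ => (∏ m ∈ range i, ρ m σ) *
        ((∏ m ∈ range i, qq p φ S V D w m σ) *
          gb p (cls S i σ) (kap S ρ i σ) (fun τ' => S i τ' \ V) w))) := by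
        refine Ex_mono h0 h1 fun w => ?_
        have ht := tower (meas_F (p := p) (φ := φ) h D w i) (fun τ => ρ i τ *
          r2 p (cls S i τ) (kap S ρ i τ) (fun τ' => S i τ' \ V) (S i τ \ V) w)
        simp only [cav_r2] at ht
        simp only [← mul_assoc] at ht ⊢
        rw [← ht]
        refine av_mono fun σ => ?_
        have a1 := prod_le (φ := φ) hp h D w i σ
        have a2 : nrho p S V ρ w i σ * Real.exp (aa p S V ρ w i σ) ≤ ρ i σ *
            r2 p (cls S i σ) (kap S ρ i σ) (fun τ' => S i τ' \ V) (S i σ \ V) w := by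
          unfold nrho
          rw [mul_assoc]
          exact mul_le_mul_of_nonneg_left (lr hp h w i σ).2 (h.nn i σ)
        have a3 := mul_le_mul a1 a2
          (mul_nonneg (mul_nonneg (h.nn i σ) (rr_nonneg hp (kap_nonneg h i σ) _ _))
            (Real.exp_pos _).le)
          (mul_nonneg (hρ σ) (prod_nonneg fun m _ => qq_nonneg hp D w m σ))
        rw [prod_range_succ, Real.exp_add]
        refine le_of_eq_of_le (by ring) (a3.trans_eq (by ring))
    _ ≤ av (fun σ => ∏ m ∈ range i, ρ m σ) := by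
        rw [Ex_av]
        refine av_mono fun σ => ?_
        rw [Ex_const_mul]
        refine mul_le_of_le_one_right (hρ σ) ?_
        refine (Ex_qq hp hS D i hD σ _ (gb_nonneg hp (kap_nonneg h i σ)) ?_).trans
          (Ex_gb hp (kap_nonneg h i σ))
        intro m hm w U hU
        refine gb_union w U fun τ hτ => ?_
        have e := mem_cls.1 hτ m hm
        refine (hS τ m i hm.ne).mono ?_ sdiff_subset
        rw [e]
        exact hU.trans sdiff_subset
    _ = 1 := h.av_prod i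

open KeyX in
/-- exponential moment for a test function -/
lemma keyB (hp : Pr p) (hS : Dj S) (h : St S V ρ) (D : ℕ → ℝ) (i : ℕ)
    (hD : ∀ m < i, DB p φ S m (D m)) (f : Ω → ℝ) :
    Ex p (fun w => av (fun σ => (∏ m ∈ range i, nrho p S V ρ w m σ) *
      Real.exp (f σ + ∑ m ∈ range i, (ph φ S (V ∪ w) m σ - aa p S V ρ w m σ - D m)))) ≤
      av (fun σ => (∏ m ∈ range i, ρ m σ) * Real.exp (f σ)) := by
  have h0 : ∀ x, 0 ≤ p x := fun x => (hp x).1.le
  have h1 : ∀ x, p x ≤ 1 := fun x => (hp x).2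
  have hρ : ∀ σ, 0 ≤ ∏ m ∈ range i, ρ m σ := fun σ => prod_nonneg fun m _ => h.nn m σ
  rw [Ex_av]
  refine av_mono fun σ => ?_
  calc _ ≤ Ex p (fun w => ((∏ m ∈ range i, ρ m σ) * Real.exp (f σ)) *
        ((∏ m ∈ range i, qq p φ S V D w m σ) * 1)) := by
        refine Ex_mono h0 h1 fun w => ?_
        have a1 := mul_le_mul_of_nonneg_left (prod_le (φ := φ) hp h D w i σ)
          (Real.exp_pos (f σ)).le
        rw [Real.exp_add]
        refine le_of_eq_of_le (by ring) (a1.trans_eq (by ring))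
    _ ≤ _ := by
        rw [Ex_const_mul]
        refine mul_le_of_le_one_right (mul_nonneg (hρ σ) (Real.exp_pos _).le) ?_
        exact (Ex_qq hp hS D i hD σ (fun _ => 1) (fun _ => zero_le_one)
          (fun _ _ _ _ _ => rfl)).trans_eq (Ex_const p 1)

end Crest.Agent.R55
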