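import Mathlib
import Crest.Prelude.Def_FinProb

/-! The Park-Pham threshold theorem in the independent-coins model, with explicit constant 32. -/

open Finset

namespace Crest.Agent.R55.PP

variable {α : Type*} [Fintype α] [DecidableEq α]

/-- product weight of a subset -/
noncomputable def wt (p : ℝ) (W : Finset α) : ℝ := ∏ x, if x ∈ W then p else 1 - p

lemma wt_nonneg {p : ℝ} (h0 : 0 ≤ p) (h1 : p ≤ 1) (W : Finset α) : 0 ≤ wt p W := by
  unfold wt
  refine Finset.prod_nonneg fun i _ => ?_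
  split_ifs <;> linarith

lemma sum_prod_ite (f g : α → ℝ) :
    ∑ W : Finset α, ∏ x, (if x ∈ W then f x else g x) = ∏ x, (f x + g x) := by
  rw [Finset.prod_add, Finset.powerset_univ]
  refine Finset.sum_congr rfl fun W _ => ?_
  rw [Finset.prod_ite]
  congr 1
  · congr 1; ext x; simp
  · congr 1; ext x; simp

lemma sum_wt (p : ℝ) : ∑ W : Finset α, wt p W = 1 := by
  unfold wt
  rw [sum_prod_ite (fun _ => p) (fun _ => 1 - p)]
  simp

lemma wt_union_pt (a b : ℝ) (Z : Finset α) :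
    ∑ W : Finset α, ∑ V : Finset α, wt a W * wt b V * (if W ∪ V = Z then 1 else 0) =
      wt (1 - (1 - a) * (1 - b)) Z := by
  have h1 : ∀ W V : Finset α, wt a W * wt b V * (if W ∪ V = Z then (1 : ℝ) else 0) =
      ∏ x, (if x ∈ V then ((if x ∈ W then a else 1 - a) * b * (if x ∈ Z then 1 else 0))
        else ((if x ∈ W then a else 1 - a) * (1 - b) * (if (x ∈ W ↔ x ∈ Z) then 1 else 0))) := by
    intro W V
    have h2 : (if W ∪ V = Z then (1 : ℝ) else 0) =
        ∏ x, (if x ∈ V then (if x ∈ Z then (1 : ℝ) else 0)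
          else (if (x ∈ W ↔ x ∈ Z) then 1 else 0)) := by
      by_cases h : W ∪ V = Z
      · rw [if_pos h]
        symm
        refine Finset.prod_eq_one fun x _ => ?_
        subst h
        by_cases hv : x ∈ V <;> simp [hv]
      · rw [if_neg h]
        symm
        have : ∃ x, ¬ (x ∈ W ∪ V ↔ x ∈ Z) := by
          by_contra hc
          push Not at hc
          exact h (Finset.ext hc)
        obtain ⟨x, hx⟩ := this
        refine Finset.prod_eq_zero (Finset.mem_univ x) ?_
        by_cases hv : x ∈ V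
        · have : x ∉ Z := fun hz => hx (by simp [hv, hz])
          simp [hv, this]
        · have : ¬ (x ∈ W ↔ x ∈ Z) := fun hz => hx (by simp [hv, hz])
          rw [if_neg hv, if_neg this]
    rw [h2]
    unfold wt
    rw [← Finset.prod_mul_distrib, ← Finset.prod_mul_distrib]
    refine Finset.prod_congr rfl fun x _ => ?_
    by_cases hv : x ∈ V <;> simp [hv]
  simp_rw [h1, sum_prod_ite]
  have h3 : ∀ W : Finset α, (∏ x, (((if x ∈ W then a else 1 - a) * b * (if x ∈ Z then 1 else 0))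
      + ((if x ∈ W then a else 1 - a) * (1 - b) * (if (x ∈ W ↔ x ∈ Z) then 1 else 0)))) =
      ∏ x, (if x ∈ W then (if x ∈ Z then a else 0)
        else (if x ∈ Z then (1 - a) * b else (1 - a) * (1 - b))) := by
    intro W
    refine Finset.prod_congr rfl fun x _ => ?_
    by_cases hw : x ∈ W <;> by_cases hz : x ∈ Z <;> simp [hw, hz]
    ring
  simp_rw [h3, sum_prod_ite]
  unfold wt
  refine Finset.prod_congr rfl fun x _ => ?_
  by_cases hz : x ∈ Z <;> simp [hz]
  ring

lemma wt_union (a b : ℝ) (g : Finset α → ℝ) :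
    ∑ Z : Finset α, wt (1 - (1 - a) * (1 - b)) Z * g Z =
      ∑ W : Finset α, wt a W * ∑ V : Finset α, wt b V * g (W ∪ V) := by
  simp_rw [← wt_union_pt a b, Finset.sum_mul, Finset.mul_sum]
  rw [Finset.sum_comm]
  refine Finset.sum_congr rfl fun W _ => ?_
  rw [Finset.sum_comm]
  refine Finset.sum_congr rfl fun V _ => ?_
  rw [Finset.sum_eq_single (W ∪ V)]
  · simp [mul_assoc]
  · intro Z _ hZ
    rw [if_neg (Ne.symm hZ)]; simp
  · simp

lemma wt_mul_pow_le {p : ℝ} (h0 : 0 ≤ p) (h1 : p ≤ 1) (W T : Finset α) :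
    wt p W * p ^ T.card ≤ wt p (W ∪ T) := by
  have : p ^ T.card = ∏ x, if x ∈ T then p else 1 := by
    rw [Finset.prod_ite_mem]; simp
  rw [this]
  unfold wt
  rw [← Finset.prod_mul_distrib]
  refine Finset.prod_le_prod (fun x _ => ?_) (fun x _ => ?_)
  · refine mul_nonneg ?_ ?_ <;> split_ifs <;> linarith
  · by_cases hw : x ∈ W <;> by_cases ht : x ∈ T <;> simp [hw, ht] <;> nlinarith

open Classical in
/-- minimal fragments -/
noncomputable def Fr (H : Finset (Finset α)) (W : Finset α) : Finset (Finset α) :=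
  Finset.univ.filter fun T => (∃ S ∈ H, S \ W = T) ∧ ∀ S ∈ H, S ⊆ W ∪ T → T ⊆ S

lemma mem_Fr {H : Finset (Finset α)} {W T : Finset α} :
    T ∈ Fr H W ↔ (∃ S ∈ H, S \ W = T) ∧ ∀ S ∈ H, S ⊆ W ∪ T → T ⊆ S := by
  unfold Fr; simp

lemma Fr_cover (H : Finset (Finset α)) (W : Finset α) {S : Finset α} (hS : S ∈ H) :
    ∃ T ∈ Fr H W, T ⊆ S := by
  obtain ⟨S', hS', hmin⟩ := Finset.exists_min_image (H.filter fun S' => S' \ W ⊆ S \ W)
    (fun S' => (S' \ W).card) ⟨S, by simp [hS]⟩
  rw [Finset.mem_filter] at hS'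
  refine ⟨S' \ W, mem_Fr.2 ⟨⟨S', hS'.1, rfl⟩, fun S'' hS'' hsub => ?_⟩,
    hS'.2.trans Finset.sdiff_subset⟩
  have h1 : S'' \ W ⊆ S' \ W := by
    intro x hx
    rw [Finset.mem_sdiff] at hx
    rcases Finset.mem_union.1 (hsub hx.1) with h | h
    · exact absurd h hx.2
    · exact h
  have h2 := hmin S'' (Finset.mem_filter.2 ⟨hS'', h1.trans hS'.2⟩)
  have h3 : S'' \ W = S' \ W := Finset.eq_of_subset_of_card_le h1 h2
  rw [← h3]; exact Finset.sdiff_subset

lemma count_Fr {p : ℝ} (h0 : 0 ≤ p) (h1 : p ≤ 1) (H : Finset (Finset α)) (l : ℕ)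
    (hH : ∀ S ∈ H, S.card ≤ l) :
    ∑ W : Finset α, ∑ T ∈ Fr H W, wt p (W ∪ T) ≤ 2 ^ l := by
  classical
  let χ : Finset α → Finset α := fun Z => if h : ∃ S ∈ H, S ⊆ Z then h.choose else ∅
  have hχ : ∀ Z, (χ Z).card ≤ l := by
    intro Z
    simp only [χ]
    split_ifs with h
    · exact hH _ h.choose_spec.1
    · simp
  have e1 : ∑ W : Finset α, ∑ T ∈ Fr H W, wt p (W ∪ T) =
      ∑ T : Finset α, ∑ W ∈ Finset.univ.filter (fun W => T ∈ Fr H W), wt p (W ∪ T) := by
    rw [Finset.sum_comm' (t' := Finset.univ)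
      (s' := fun T => Finset.univ.filter (fun W => T ∈ Fr H W))]
    intro W T; simp
  have e2 : ∀ T : Finset α, ∑ W ∈ Finset.univ.filter (fun W => T ∈ Fr H W), wt p (W ∪ T) ≤
      ∑ Z ∈ Finset.univ.filter (fun Z => T ⊆ χ Z), wt p Z := by
    intro T
    have hdis : ∀ W, T ∈ Fr H W → Disjoint W T := by
      intro W hW
      obtain ⟨⟨S, _, rfl⟩, _⟩ := mem_Fr.1 hW
      exact Finset.disjoint_sdiff
    have hinj : Set.InjOn (fun W : Finset α => W ∪ T)
        (Finset.univ.filter (fun W => T ∈ Fr H W) : Finset (Finset α)) := by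
      intro W hW V hV h
      simp only [Finset.coe_filter, Finset.mem_univ, true_and, Set.mem_ofPred_eq] at hW hV
      have a1 := Finset.union_sdiff_cancel_right (hdis W hW)
      have a2 := Finset.union_sdiff_cancel_right (hdis V hV)
      simp only at h
      rw [← a1, ← a2, h]
    rw [← Finset.sum_image (f := fun Z => wt p Z) hinj]
    refine Finset.sum_le_sum_of_subset_of_nonneg ?_ fun Z _ _ => wt_nonneg h0 h1 Z
    intro Z hZ
    obtain ⟨W, hW, rfl⟩ := Finset.mem_image.1 hZ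
    simp only [Finset.mem_filter, Finset.mem_univ, true_and] at hW ⊢
    obtain ⟨⟨S, hS, hST⟩, hmin⟩ := mem_Fr.1 hW
    have hex : ∃ S ∈ H, S ⊆ W ∪ T := ⟨S, hS, by
      rw [← hST]; intro x hx
      by_cases hw : x ∈ W <;> simp [hw, hx]⟩
    simp only [χ, dif_pos hex]
    exact hmin _ hex.choose_spec.1 hex.choose_spec.2
  have e3 : ∑ T : Finset α, ∑ Z ∈ Finset.univ.filter (fun Z => T ⊆ χ Z), wt p Z =
      ∑ Z : Finset α, ∑ _T ∈ (χ Z).powerset, wt p Z := by
    rw [Finset.sum_comm' (t' := Finset.univ) (s' := fun Z => (χ Z).powerset)]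
    intro T Z; simp
  rw [e1]
  refine (Finset.sum_le_sum fun T _ => e2 T).trans ?_
  rw [e3]
  calc ∑ Z : Finset α, ∑ _T ∈ (χ Z).powerset, wt p Z ≤ ∑ Z : Finset α, (2 : ℝ) ^ l * wt p Z := by
        refine Finset.sum_le_sum fun Z _ => ?_
        rw [Finset.sum_const, Finset.card_powerset, nsmul_eq_mul]
        refine mul_le_mul_of_nonneg_right ?_ (wt_nonneg h0 h1 Z)
        push_cast
        exact pow_le_pow_right₀ (by norm_num) (hχ Z)
    _ = 2 ^ l := by rw [← Finset.mul_sum, sum_wt, mul_one]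

lemma cost_Fr {p r : ℝ} (h0 : 0 ≤ p) (h1 : p ≤ 1) (hr : 0 ≤ r) (hrp : 32 * r ≤ p)
    (H : Finset (Finset α)) (m : ℕ) (hH : ∀ S ∈ H, S.card ≤ 2 * m) :
    ∑ W : Finset α, wt p W * ∑ T ∈ (Fr H W).filter (fun T => ¬ T.card < m), r ^ T.card ≤
      (1 / 8) ^ m := by
  have key : ∀ W : Finset α, wt p W * ∑ T ∈ (Fr H W).filter (fun T => ¬ T.card < m), r ^ T.card ≤
      (1 / 32) ^ m * ∑ T ∈ Fr H W, wt p (W ∪ T) := by
    intro W
    rw [Finset.mul_sum, Finset.mul_sum]
    refine le_trans (Finset.sum_le_sum fun T hT => ?_)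
      (Finset.sum_le_sum_of_subset_of_nonneg (Finset.filter_subset _ _) fun T _ _ =>
        mul_nonneg (by positivity) (wt_nonneg h0 h1 _))
    have hm : m ≤ T.card := not_lt.1 (Finset.mem_filter.1 hT).2
    have a1 : r ^ T.card ≤ (1 / 32) ^ T.card * p ^ T.card := by
      rw [← mul_pow]; exact pow_le_pow_left₀ hr (by linarith) _
    have a2 : ((1 : ℝ) / 32) ^ T.card ≤ (1 / 32) ^ m :=
      pow_le_pow_of_le_one (by norm_num) (by norm_num) hm
    have a3 := wt_mul_pow_le h0 h1 W T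
    have a4 := wt_nonneg h0 h1 W
    calc wt p W * r ^ T.card ≤ wt p W * ((1 / 32) ^ m * p ^ T.card) :=
          mul_le_mul_of_nonneg_left (a1.trans (mul_le_mul_of_nonneg_right a2 (by positivity))) a4
      _ = (1 / 32) ^ m * (wt p W * p ^ T.card) := by ring
      _ ≤ _ := mul_le_mul_of_nonneg_left a3 (by positivity)
  refine (Finset.sum_le_sum fun W _ => key W).trans ?_
  rw [← Finset.mul_sum]
  refine (mul_le_mul_of_nonneg_left (count_Fr h0 h1 H _ hH) (by positivity)).trans (le_of_eq ?_)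
  rw [pow_mul, ← mul_pow]; norm_num

open Classical in
/-- probability that no member of `H` appears -/
noncomputable def fail (P : ℝ) (H : Finset (Finset α)) : ℝ :=
  ∑ W : Finset α, wt P W * (if ∃ S ∈ H, S ⊆ W then 0 else 1)

lemma fail_nonneg {P : ℝ} (h0 : 0 ≤ P) (h1 : P ≤ 1) (H : Finset (Finset α)) : 0 ≤ fail P H :=
  Finset.sum_nonneg fun W _ => mul_nonneg (wt_nonneg h0 h1 W) (by split_ifs <;> norm_num)

lemma fail_le_one {P : ℝ} (h0 : 0 ≤ P) (h1 : P ≤ 1) (H : Finset (Finset α)) : fail P H ≤ 1 := by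
  rw [← sum_wt (α := α) P]
  refine Finset.sum_le_sum fun W _ => ?_
  have := wt_nonneg h0 h1 W
  split_ifs <;> simp [this]

lemma main {p r : ℝ} (h0 : 0 ≤ p) (h1 : p < 1) (hr : 0 ≤ r) (hrp : 32 * r ≤ p) (k : ℕ) :
    ∀ (H : Finset (Finset α)) (_ : ∀ S ∈ H, S.card < 2 ^ k) (φ : ℝ)
      (_ : ∀ G : Finset (Finset α), (∀ S ∈ H, ∃ T ∈ G, T ⊆ S) → φ ≤ ∑ T ∈ G, r ^ T.card)
      (P : ℝ) (_ : 0 ≤ P) (_ : P ≤ 1) (_ : 1 - P ≤ (1 - p) ^ k),
      φ * fail P H ≤ (1 / 4) * (1 - (1 / 2) ^ k) := by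
  classical
  induction k with
  | zero =>
    intro H hH φ hφ P hP0 hP1 _
    simp only [pow_zero, sub_self, mul_zero]
    rcases H.eq_empty_or_nonempty with rfl | ⟨S, hS⟩
    · have := hφ ∅ (by simp)
      simp only [Finset.sum_empty] at this
      exact mul_nonpos_of_nonpos_of_nonneg this (fail_nonneg hP0 hP1 _)
    · have hS0 : S = ∅ := by
        have := hH S hS
        simp only [pow_zero, Nat.lt_one_iff, Finset.card_eq_zero] at this
        exact this
      have : fail P H = 0 := by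
        unfold fail
        refine Finset.sum_eq_zero fun W _ => ?_
        rw [if_pos ⟨S, hS, by simp [hS0]⟩, mul_zero]
      rw [this, mul_zero]
  | succ k ih =>
    intro H hH φ hφ P hP0 hP1 hP
    have hc : (0 : ℝ) ≤ (1 / 4) * (1 - (1 / 2) ^ (k + 1)) := by
      have : ((1 : ℝ) / 2) ^ (k + 1) ≤ 1 := pow_le_one₀ (by norm_num) (by norm_num)
      linarith
    rcases le_or_gt φ 0 with hφ0 | hφ0
    · exact (mul_nonpos_of_nonpos_of_nonneg hφ0 (fail_nonneg hP0 hP1 _)).trans hc
    have hq : 0 < 1 - p := by linarith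
    set Q : ℝ := 1 - (1 - P) / (1 - p) with hQ
    have hQ1 : 1 - Q ≤ (1 - p) ^ k := by
      rw [hQ, sub_sub_cancel, div_le_iff₀ hq, ← pow_succ]; exact hP
    have hQle : Q ≤ 1 := by
      have : 0 ≤ (1 - P) / (1 - p) := div_nonneg (by linarith) hq.le
      linarith
    have hQ0 : 0 ≤ Q := by
      have : (1 - p) ^ k ≤ 1 := pow_le_one₀ hq.le (by linarith)
      linarith
    have hPQ : P = 1 - (1 - p) * (1 - Q) := by
      rw [hQ, sub_sub_cancel]; field_simp; ring
    let lo : Finset α → Finset (Finset α) := fun W => (Fr H W).filter fun T => T.card < 2 ^ k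
    let cost : Finset α → ℝ := fun W =>
      ∑ T ∈ (Fr H W).filter (fun T => ¬ T.card < 2 ^ k), r ^ T.card
    have hcost0 : ∀ W, 0 ≤ cost W := fun W => Finset.sum_nonneg fun T _ => by positivity
    have hfail : fail P H ≤ ∑ W : Finset α, wt p W * fail Q (lo W) := by
      unfold fail
      rw [hPQ, wt_union]
      refine Finset.sum_le_sum fun W _ => mul_le_mul_of_nonneg_left ?_ (wt_nonneg h0 h1.le W)
      refine Finset.sum_le_sum fun V _ => mul_le_mul_of_nonneg_left ?_ (wt_nonneg hQ0 hQle V)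
      by_cases hV : ∃ T ∈ lo W, T ⊆ V
      · obtain ⟨T, hT, hTV⟩ := hV
        obtain ⟨⟨S, hS, hST⟩, _⟩ := mem_Fr.1 (Finset.mem_filter.1 hT).1
        rw [if_pos ⟨S, hS, fun x hx => by
          by_cases hw : x ∈ W
          · exact Finset.mem_union_left _ hw
          · exact Finset.mem_union_right _ (hTV (by rw [← hST]; simp [hx, hw]))⟩]
        split_ifs <;> norm_num
      · rw [if_neg hV]
        split_ifs <;> norm_num
    have hstep : ∀ W, φ * fail Q (lo W) ≤ (1 / 4) * (1 - (1 / 2) ^ k) + cost W := by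
      intro W
      have a1 := ih (lo W) (fun T hT => (Finset.mem_filter.1 hT).2) (φ - cost W) (by
        intro G hG
        have := hφ (G ∪ (Fr H W).filter (fun T => ¬ T.card < 2 ^ k)) (by
          intro S hS
          obtain ⟨T, hT, hTS⟩ := Fr_cover H W hS
          by_cases hk : T.card < 2 ^ k
          · obtain ⟨U, hU, hUT⟩ := hG T (Finset.mem_filter.2 ⟨hT, hk⟩)
            exact ⟨U, Finset.mem_union_left _ hU, hUT.trans hTS⟩
          · exact ⟨T, Finset.mem_union_right _ (Finset.mem_filter.2 ⟨hT, hk⟩), hTS⟩)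
        have h2 := Finset.sum_union_inter (s₁ := G)
          (s₂ := (Fr H W).filter (fun T => ¬ T.card < 2 ^ k)) (f := fun T => r ^ T.card)
        have h3 : 0 ≤ ∑ T ∈ G ∩ (Fr H W).filter (fun T => ¬ T.card < 2 ^ k), r ^ T.card :=
          Finset.sum_nonneg fun T _ => by positivity
        simp only [cost]
        linarith) Q hQ0 hQle hQ1
      have a2 := fail_le_one hQ0 hQle (lo W)
      have a3 := hcost0 W
      nlinarith
    have hcostE : ∑ W : Finset α, wt p W * cost W ≤ (1 / 8) ^ (2 ^ k) :=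
      cost_Fr h0 h1.le hr hrp H (2 ^ k) fun S hS => by
        have := hH S hS
        rw [pow_succ] at this
        omega
    have hsmall : ((1 : ℝ) / 8) ^ (2 ^ k) ≤ (1 / 4) * (1 / 2) ^ (k + 1) := by
      have b1 : ((1 : ℝ) / 8) ^ (2 ^ k) ≤ (1 / 8) ^ (k + 1) :=
        pow_le_pow_of_le_one (by norm_num) (by norm_num) (Nat.lt_two_pow_self)
      have b2 : ((1 : ℝ) / 8) ^ (k + 1) = (1 / 4) ^ (k + 1) * (1 / 2) ^ (k + 1) := by
        rw [← mul_pow]; norm_num
      have b3 : ((1 : ℝ) / 4) ^ (k + 1) ≤ 1 / 4 := by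
        rw [pow_succ]
        have : ((1 : ℝ) / 4) ^ k ≤ 1 := pow_le_one₀ (by norm_num) (by norm_num)
        linarith
      rw [b2] at b1
      exact b1.trans (mul_le_mul_of_nonneg_right b3 (by positivity))
    calc φ * fail P H ≤ φ * ∑ W : Finset α, wt p W * fail Q (lo W) :=
          mul_le_mul_of_nonneg_left hfail hφ0.le
      _ = ∑ W : Finset α, wt p W * (φ * fail Q (lo W)) := by
          rw [Finset.mul_sum]; exact Finset.sum_congr rfl fun W _ => by ring
      _ ≤ ∑ W : Finset α, wt p W * ((1 / 4) * (1 - (1 / 2) ^ k) + cost W) :=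
          Finset.sum_le_sum fun W _ => mul_le_mul_of_nonneg_left (hstep W) (wt_nonneg h0 h1.le W)
      _ = (1 / 4) * (1 - (1 / 2) ^ k) + ∑ W : Finset α, wt p W * cost W := by
          simp_rw [mul_add]
          rw [Finset.sum_add_distrib, ← Finset.sum_mul, sum_wt, one_mul]
      _ ≤ (1 / 4) * (1 - (1 / 2) ^ (k + 1)) := by
          have : ((1 : ℝ) / 2) ^ k = 2 * (1 / 2) ^ (k + 1) := by rw [pow_succ]; ring
          rw [this]
          linarith

lemma prob_eq (P : ℝ) (F : Finset (Finset α)) :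
    Crest.FinProb.bernoulliProb P {ω : α → Bool | ∃ S ∈ F, ∀ x ∈ S, ω x = true} =
      1 - fail P F := by
  classical
  rw [← sum_wt (α := α) P]
  unfold fail Crest.FinProb.bernoulliProb
  rw [← Finset.sum_sub_distrib, Finset.sum_filter]
  symm
  refine Finset.sum_bij' (fun W _ => fun x => decide (x ∈ W))
    (fun ω _ => Finset.univ.filter fun x => ω x = true) (by simp) (by simp)
    (fun W _ => by ext x; simp) (fun ω _ => by ext x; simp) ?_
  intro W _
  have hw : Crest.FinProb.bernoulliWeight P (fun x => decide (x ∈ W)) = wt P W := by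
    unfold Crest.FinProb.bernoulliWeight wt
    simp
  rw [hw]
  by_cases h : ∃ S ∈ F, S ⊆ W
  · rw [if_pos h, if_pos]
    · ring
    · obtain ⟨S, hS, hSW⟩ := h
      exact ⟨S, hS, fun x hx => by simpa using hSW hx⟩
  · rw [if_neg h, if_neg]
    · ring
    · rintro ⟨S, hS, hSW⟩
      exact h ⟨S, hS, fun x hx => by simpa using hSW x hx⟩

end Crest.Agent.R55.PP

namespace Crest.Agent.R55

open PP in
/-- Park-Pham: a family of sets of size at most `l` with no cheap cover at `r` appears at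
density `32 r (1 + log₂ l)`. -/
theorem parkPham {α : Type*} [Fintype α] [DecidableEq α] (F : Finset (Finset α)) (l : ℕ)
    (hl : 1 ≤ l) (hF : ∀ S ∈ F, S.card ≤ l) (r : ℝ) (hr : 0 ≤ r)
    (hcov : ∀ G : Finset (Finset α), (∀ S ∈ F, ∃ T ∈ G, T ⊆ S) → 1 / 2 ≤ ∑ T ∈ G, r ^ T.card)
    (P : ℝ) (hP1 : P ≤ 1) (hP : min 1 (32 * r * (1 + Real.logb 2 l)) ≤ P) :
    1 / 2 ≤ Crest.FinProb.bernoulliProb P {ω : α → Bool | ∃ S ∈ F, ∀ x ∈ S, ω x = true} := by
  classical
  rw [prob_eq]
  have hl' : (1 : ℝ) ≤ l := by exact_mod_cast hl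
  have hlog : 0 ≤ Real.logb 2 (l : ℝ) := Real.logb_nonneg (by norm_num) hl'
  rcases eq_or_lt_of_le hP1 with rfl | hlt
  · have hne : F.Nonempty := by
      rw [Finset.nonempty_iff_ne_empty]
      rintro rfl
      have := hcov ∅ (by simp)
      norm_num at this
    obtain ⟨S, hS⟩ := hne
    have : fail 1 F = 0 := by
      unfold fail
      refine Finset.sum_eq_zero fun W _ => ?_
      by_cases hW : W = Finset.univ
      · rw [if_pos ⟨S, hS, by simp [hW]⟩, mul_zero]
      · obtain ⟨x, hx⟩ : ∃ x, x ∉ W := by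
          by_contra hc
          push Not at hc
          exact hW (Finset.eq_univ_iff_forall.2 hc)
        have : wt 1 W = 0 := Finset.prod_eq_zero (Finset.mem_univ x) (by simp [hx])
        rw [this, zero_mul]
    rw [this]; norm_num
  have hP' : 32 * r * (1 + Real.logb 2 l) ≤ P := by
    rcases min_le_iff.1 hP with h | h
    · linarith
    · exact h
  have hP0 : 0 ≤ P := le_trans (by positivity) hP'
  set k := Nat.log 2 l + 1 with hk
  have hk1 : (1 : ℝ) ≤ k := by rw [hk]; push_cast; linarith [Nat.cast_nonneg (α := ℝ) (Nat.log 2 l)]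
  have hkl : (k : ℝ) ≤ 1 + Real.logb 2 l := by
    have h1 : ((2 : ℝ)) ^ (Nat.log 2 l) ≤ l := by
      exact_mod_cast Nat.pow_log_le_self 2 (by omega : l ≠ 0)
    have h2 : (Nat.log 2 l : ℝ) ≤ Real.logb 2 l := by
      rw [Real.le_logb_iff_rpow_le (by norm_num) (by linarith), Real.rpow_natCast]
      exact h1
    rw [hk]; push_cast; linarith
  have hp0 : 0 ≤ P / k := by positivity
  have hpP : P / k ≤ P := div_le_self hP0 hk1
  have hrp : 32 * r ≤ P / k := by
    rw [le_div_iff₀ (by linarith)]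
    exact (mul_le_mul_of_nonneg_left hkl (by positivity)).trans hP'
  have hB : 1 - P ≤ (1 - P / k) ^ k := by
    have := one_add_mul_le_pow (a := -(P / k)) (by linarith) k
    have e : (k : ℝ) * -(P / k) = -P := by field_simp
    rw [e] at this
    simpa [sub_eq_add_neg] using this
  have := main hp0 (lt_of_le_of_lt hpP hlt) hr hrp k F
    (fun S hS => lt_of_le_of_lt (hF S hS) (Nat.lt_pow_succ_log_self (by norm_num) l))
    (1 / 2) hcov P hP0 hP1 hB
  have h2 : (0 : ℝ) ≤ (1 / 2) ^ k := by positivity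
  linarith

end Crest.Agent.R55
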