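import Crest.Agent.R55.Bern

set_option autoImplicit false
open Finset

namespace Crest.Agent.R55

variable {Y Ω : Type*} [DecidableEq Y] {p : Y → ℝ} {C : Finset Ω} {κ : Ω → ℝ}
  {t : Ω → Finset Y}

lemma Zf_nonneg (hp : Pr p) (hκ : ∀ τ ∈ C, 0 ≤ κ τ) (y : Finset Y) : 0 ≤ Zf p C κ t y := by
  exact sum_nonneg fun τ hτ =>
    mul_nonneg (hκ τ hτ) (mul_nonneg (ip_pos hp _).le (ind_nonneg _))

lemma rr_nonneg (hp : Pr p) (hκ : ∀ τ ∈ C, 0 ≤ κ τ) (T w : Finset Y) : 0 ≤ rr p C κ t T w := by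
  exact mul_nonneg (ip_pos hp _).le (sum_nonneg fun τ hτ =>
    mul_nonneg (mul_nonneg (hκ τ hτ) (ind_nonneg _)) (inv_nonneg.2 (Zf_nonneg hp hκ _)))

lemma r2_nonneg (hp : Pr p) (hκ : ∀ τ ∈ C, 0 ≤ κ τ) (T w : Finset Y) : 0 ≤ r2 p C κ t T w := by
  exact mul_nonneg (ip_pos hp _).le (sum_nonneg fun τ hτ =>
    mul_nonneg (mul_nonneg (hκ τ hτ) (ind_nonneg _)) (sq_nonneg _))

lemma gb_nonneg (hp : Pr p) (hκ : ∀ τ ∈ C, 0 ≤ κ τ) (w : Finset Y) : 0 ≤ gb p C κ t w := by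
  exact sum_nonneg fun τ hτ => mul_nonneg (hκ τ hτ) (inv_nonneg.2 (Zf_nonneg hp hκ _))

omit [DecidableEq Y] in
lemma psi_nonneg (hκ : ∀ τ ∈ C, 0 ≤ κ τ) (U : Finset Y) : 0 ≤ psi C κ t U := by
  exact sum_nonneg fun τ hτ => mul_nonneg (hκ τ hτ) (ind_nonneg _)

namespace ResX

lemma kZ (hp : Pr p) (hκ : ∀ τ ∈ C, 0 ≤ κ τ) (w : Finset Y) {τ : Ω} (hτ : τ ∈ C) :
    κ τ * (Zf p C κ t (w ∪ t τ) * (Zf p C κ t (w ∪ t τ))⁻¹) = κ τ := by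
  rcases (hκ τ hτ).eq_or_lt with h | h
  · rw [← h, zero_mul]
  · have h1 : κ τ * (ip p (t τ) * ind (t τ ⊆ w ∪ t τ)) ≤ Zf p C κ t (w ∪ t τ) :=
      single_le_sum (f := fun σ => κ σ * (ip p (t σ) * ind (t σ ⊆ w ∪ t τ)))
        (fun σ hσ => mul_nonneg (hκ σ hσ) (mul_nonneg (ip_pos hp _).le (ind_nonneg _))) hτ
    rw [ind_true subset_union_right, mul_one] at h1
    have h2 : 0 < Zf p C κ t (w ∪ t τ) := (mul_pos h (ip_pos hp _)).trans_le h1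
    rw [mul_inv_cancel₀ h2.ne', mul_one]

lemma ZZ (x : ℝ) : x * x⁻¹ ≤ 1 := by
  rcases eq_or_ne x 0 with h | h
  · simp [h]
  · rw [mul_inv_cancel₀ h]

/-- swapping the two sums -/
lemma swap (w : Finset Y) (a : Ω → ℝ) (z : Ω → ℝ) :
    ∑ σ ∈ C, κ σ * (ip p (t σ) * ∑ τ ∈ C, κ τ * ind (t σ ⊆ w ∪ t τ) * z τ) * a σ =
      ∑ τ ∈ C, κ τ * ((∑ σ ∈ C, κ σ * (ip p (t σ) * ind (t σ ⊆ w ∪ t τ)) * a σ) * z τ) := by
  simp only [mul_sum, sum_mul]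
  rw [sum_comm]
  exact sum_congr rfl fun τ _ => sum_congr rfl fun σ _ => by ring

lemma Ex_mix [Fintype Y] (hp : Pr p) (g : Finset Y → ℝ) :
    Ex p (fun w => ∑ τ ∈ C, κ τ * g (w ∪ t τ)) = Ex p (fun y => Zf p C κ t y * g y) := by
  rw [Ex_sum]
  have : (fun y => Zf p C κ t y * g y) =
      fun y => ∑ τ ∈ C, κ τ * (ip p (t τ) * ind (t τ ⊆ y) * g y) := by
    funext y
    rw [Zf, sum_mul]
    exact sum_congr rfl fun τ _ => by ring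
  rw [this, Ex_sum]
  refine sum_congr rfl fun τ _ => ?_
  rw [Ex_const_mul, Ex_const_mul, plant hp]

end ResX

/-- the resample is a probability distribution -/
lemma sum_rr (hp : Pr p) (hκ : ∀ τ ∈ C, 0 ≤ κ τ) (w : Finset Y) :
    ∑ σ ∈ C, κ σ * rr p C κ t (t σ) w = ∑ τ ∈ C, κ τ := by
  have h := ResX.swap (p := p) (C := C) (κ := κ) (t := t) w (fun _ => 1)
    (fun τ => (Zf p C κ t (w ∪ t τ))⁻¹)
  simp only [mul_one] at h
  exact h.trans (sum_congr rfl fun τ hτ => ResX.kZ hp hκ w hτ)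

/-- spread is inherited by the new fragments -/
lemma psi_rr (hp : Pr p) (hκ : ∀ τ ∈ C, 0 ≤ κ τ) (w U : Finset Y) :
    psi C (fun σ => κ σ * rr p C κ t (t σ) w) (fun σ => t σ \ w) U ≤ psi C κ t U := by
  have h := ResX.swap (p := p) (C := C) (κ := κ) (t := t) w (fun σ => ind (U ⊆ t σ \ w))
    (fun τ => (Zf p C κ t (w ∪ t τ))⁻¹)
  refine h.trans_le (sum_le_sum fun τ hτ => ?_)
  have h1 : (∑ σ ∈ C, κ σ * (ip p (t σ) * ind (t σ ⊆ w ∪ t τ)) * ind (U ⊆ t σ \ w)) ≤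
      Zf p C κ t (w ∪ t τ) * ind (U ⊆ t τ) := by
    rw [Zf, sum_mul]
    refine sum_le_sum fun σ hσ => ?_
    by_cases h1 : t σ ⊆ w ∪ t τ
    · refine mul_le_mul_of_nonneg_left (ind_mono fun h2 x hx => ?_)
        (mul_nonneg (hκ σ hσ) (mul_nonneg (ip_pos hp _).le (ind_nonneg _)))
      have h3 := mem_sdiff.1 (h2 hx)
      exact (mem_union.1 (h1 h3.1)).resolve_left h3.2
    · rw [ind_false h1]; simp
  calc _ ≤ κ τ * (Zf p C κ t (w ∪ t τ) * ind (U ⊆ t τ) * (Zf p C κ t (w ∪ t τ))⁻¹) :=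
        mul_le_mul_of_nonneg_left (mul_le_mul_of_nonneg_right h1
          (inv_nonneg.2 (Zf_nonneg hp hκ _))) (hκ τ hτ)
    _ = κ τ * (Zf p C κ t (w ∪ t τ) * (Zf p C κ t (w ∪ t τ))⁻¹) * ind (U ⊆ t τ) := by ring
    _ = _ := by rw [ResX.kZ hp hκ w hτ]

/-- Cauchy--Schwarz -/
lemma rr_sq_le (hp : Pr p) (hκ : ∀ τ ∈ C, 0 ≤ κ τ) (T w : Finset Y) :
    rr p C κ t T w ^ 2 ≤ ip p T * psi C κ t (T \ w) * r2 p C κ t T w := by
  have e1 : psi C κ t (T \ w) = ∑ τ ∈ C, κ τ * ind (T ⊆ w ∪ t τ) :=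
    sum_congr rfl fun τ _ => by rw [ind_congr sdiff_le_iff]; rfl
  have h := sum_mul_sq_le_sq_mul_sq C (fun τ => Real.sqrt (κ τ * ind (T ⊆ w ∪ t τ)))
    (fun τ => Real.sqrt (κ τ * ind (T ⊆ w ∪ t τ)) * (Zf p C κ t (w ∪ t τ))⁻¹)
  have n1 : ∀ τ ∈ C, 0 ≤ κ τ * ind (T ⊆ w ∪ t τ) := fun τ hτ =>
    mul_nonneg (hκ τ hτ) (ind_nonneg _)
  rw [sum_congr rfl fun τ hτ => by rw [← mul_assoc, Real.mul_self_sqrt (n1 τ hτ)],
    sum_congr rfl fun τ hτ => Real.sq_sqrt (n1 τ hτ)] at h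
  have e2 : ∑ τ ∈ C, (Real.sqrt (κ τ * ind (T ⊆ w ∪ t τ)) * (Zf p C κ t (w ∪ t τ))⁻¹) ^ 2 =
      ∑ τ ∈ C, κ τ * ind (T ⊆ w ∪ t τ) * (Zf p C κ t (w ∪ t τ))⁻¹ ^ 2 :=
    sum_congr rfl fun τ hτ => by rw [mul_pow, Real.sq_sqrt (n1 τ hτ)]
  rw [e2] at h
  rw [rr, r2, e1, mul_pow]
  have := mul_le_mul_of_nonneg_left h (sq_nonneg (ip p T))
  exact this.trans_eq (by ring)

lemma sum_r2 (w : Finset Y) : ∑ σ ∈ C, κ σ * r2 p C κ t (t σ) w = gb p C κ t w := by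
  have h := ResX.swap (p := p) (C := C) (κ := κ) (t := t) w (fun _ => 1)
    (fun τ => (Zf p C κ t (w ∪ t τ))⁻¹ ^ 2)
  simp only [mul_one] at h
  refine h.trans (sum_congr rfl fun τ _ => ?_)
  congr 1
  show Zf p C κ t (w ∪ t τ) * (Zf p C κ t (w ∪ t τ))⁻¹ ^ 2 = _
  rcases eq_or_ne (Zf p C κ t (w ∪ t τ)) 0 with h0 | h0
  · simp [h0]
  · field_simp

lemma gb_union (w T : Finset Y) (hT : ∀ τ ∈ C, Disjoint T (t τ)) :
    gb p C κ t (w ∪ T) = gb p C κ t w := by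
  refine sum_congr rfl fun τ _ => ?_
  congr 2
  refine sum_congr rfl fun σ hσ => ?_
  congr 2
  refine ind_congr ⟨fun h x hx => ?_, fun h x hx => ?_⟩
  · have h1 := h hx
    have h2 := disjoint_right.1 (hT σ hσ) hx
    simp only [mem_union] at h1 ⊢
    tauto
  · have h1 := h hx
    simp only [mem_union] at h1 ⊢
    tauto

lemma Ex_gb [Fintype Y] (hp : Pr p) (hκ : ∀ τ ∈ C, 0 ≤ κ τ) : Ex p (gb p C κ t) ≤ 1 := by
  have h := ResX.Ex_mix (C := C) (κ := κ) (t := t) hp (fun y => (Zf p C κ t y)⁻¹)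
  refine h.trans_le ((Ex_mono (fun x => (hp x).1.le) (fun x => (hp x).2)
    fun y => ResX.ZZ _).trans_eq (Ex_const p 1))

lemma Ex_rr [Fintype Y] (hp : Pr p) (hκ : ∀ τ ∈ C, 0 ≤ κ τ) (T : Finset Y) :
    Ex p (fun w => rr p C κ t T w) ≤ 1 := by
  have h := ResX.Ex_mix (C := C) (κ := κ) (t := t) hp
    (fun y => ip p T * ind (T ⊆ y) * (Zf p C κ t y)⁻¹)
  have e : (fun w => rr p C κ t T w) = fun w => ∑ τ ∈ C, κ τ *
      (ip p T * ind (T ⊆ w ∪ t τ) * (Zf p C κ t (w ∪ t τ))⁻¹) := by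
    funext w
    rw [rr, mul_sum]
    exact sum_congr rfl fun τ _ => by ring
  rw [e, h]
  have h2 := plant hp T (fun _ => 1)
  rw [Ex_const] at h2
  rw [h2]
  refine Ex_mono (fun x => (hp x).1.le) (fun x => (hp x).2) fun y => ?_
  have h3 := mul_le_mul_of_nonneg_left (ResX.ZZ (Zf p C κ t y))
    (mul_nonneg (ip_pos hp T).le (ind_nonneg (T ⊆ y)))
  exact le_of_eq_of_le (by ring) h3

lemma log_ratio {r b s : ℝ} (hr : 0 ≤ r) (hb : 0 ≤ b) (hs : 0 ≤ s) (h : r ^ 2 ≤ b * s) :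
    r * Real.exp (-Real.log (r / b)) ≤ b ∧ r * Real.exp (Real.log (r / b)) ≤ s := by
  rcases hr.eq_or_lt with h0 | h0
  · subst h0
    simpa using ⟨hb, hs⟩
  · have hb' : 0 < b := by
      rcases hb.eq_or_lt with h1 | h1
      · rw [← h1, zero_mul] at h
        exact absurd h (not_le.2 (pow_pos h0 2))
      · exact h1
    rw [Real.exp_neg, Real.exp_log (div_pos h0 hb')]
    constructor
    · exact le_of_eq (by field_simp)
    · rw [← mul_div_assoc, div_le_iff₀ hb']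
      nlinarith

end Crest.Agent.R55
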