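import Crest.Agent.R55.Core
import Crest.Agent.R55.Chain
import Crest.Agent.R55.DBd

set_option autoImplicit false
open Finset

namespace Crest.Agent.R55

namespace SelX

theorem geo (n : ℕ) : ∑ k ∈ range n, ((2 : ℝ) ^ (k + 1))⁻¹ = 1 - ((2 : ℝ) ^ n)⁻¹ := by
  induction n with
  | zero => simp
  | succ n ih =>
    rw [sum_range_succ, ih, pow_succ]
    field_simp
    ring

theorem th_sum {X : Type*} [Fintype X] [DecidableEq X] (R : ℕ) (x : X) :
    ∑ y ∈ univ.filter (fun y : X × Fin (R + 1) => y.1 = x), th y ≤ 1 := by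
  rw [sum_filter, Fintype.sum_prod_type, Finset.sum_eq_single x]
  · simp only [if_true, th]
    rw [Fin.sum_univ_eq_sum_range (fun k => ((2 : ℝ) ^ (k + 1))⁻¹), geo]
    have : (0 : ℝ) ≤ ((2 : ℝ) ^ (R + 1))⁻¹ := by positivity
    linarith
  · intro b _ hb
    simp [hb]
  · simp

theorem exists_Y (y : ℕ → ℝ) (hy : ∀ i, 0 ≤ y i) : ∃ Yv : ℕ → ℝ, (∀ i, 0 ≤ Yv i) ∧
    (∀ i, 3 * Yv i ≤ Yv (i + 1)) ∧ (∀ i, ∑ m ∈ range (i + 1), y m ≤ Yv i) ∧
    ∀ n, ∑ i ∈ range n, Yv i / 4 ^ (i + 1) ≤ 4 * ∑ i ∈ range n, y i / 4 ^ (i + 1) := by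
  obtain ⟨Yv, h0, hs⟩ : ∃ Yv : ℕ → ℝ, Yv 0 = y 0 ∧ ∀ i, Yv (i + 1) = 3 * Yv i + y (i + 1) :=
    ⟨fun n => Nat.rec (y 0) (fun i Yi => 3 * Yi + y (i + 1)) n, rfl, fun _ => rfl⟩
  have hn : ∀ i, 0 ≤ Yv i := by
    intro i
    induction i with
    | zero => rw [h0]; exact hy 0
    | succ i ih => rw [hs]; linarith [hy (i + 1)]
  refine ⟨Yv, hn, fun i => by rw [hs]; linarith [hy (i + 1)], fun i => ?_, fun n => ?_⟩
  · induction i with
    | zero => simp [h0]
    | succ i ih => rw [sum_range_succ, hs]; linarith [hn i]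
  · have key : ∀ n, ∑ i ∈ range (n + 1), Yv i / 4 ^ (i + 1) + 3 * Yv n / 4 ^ (n + 1) =
        4 * ∑ i ∈ range (n + 1), y i / 4 ^ (i + 1) := by
      intro n
      induction n with
      | zero => simp [h0]; ring
      | succ n ih =>
        rw [sum_range_succ, sum_range_succ (fun i => y i / 4 ^ (i + 1)), mul_add, ← ih, hs,
          pow_succ (4 : ℝ) (n + 1)]
        field_simp
        ring
    rcases n with _ | n
    · simp
    · have h1 := key n
      have h2 : 0 ≤ 3 * Yv n / 4 ^ (n + 1) := by have := hn n; positivity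
      linarith

theorem DB_mono {Y Ω : Type*} [DecidableEq Y] [Fintype Ω] {p φ : Y → ℝ} {S : ℕ → Ω → Finset Y}
    {i : ℕ} {D D' : ℝ} (h : DB p φ S i D) (hD : D ≤ D') : DB p φ S i D' :=
  fun σ => (h σ).trans (Real.exp_le_exp.2 hD)

theorem mass {G X : Type*} [Group G] [MulAction G X] [DecidableEq X] {R : ℕ} (nn : X → ℕ)
    (B : ℕ → Finset X) {i : ℕ} (hi : i < R) (σ : G) (V : Finset (X × Fin (R + 1))) :
    ∑ e ∈ B i, (4 ^ nn e : ℝ)⁻¹ * ind (σ • e ∉ V.image Prod.fst) ≤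
      8 / 4 ^ (i + 1) * ph phi (coh (G := G) R nn B) V i σ := by
  have h1 : ∑ e ∈ (B i).filter (fun e => σ • e ∉ V.image Prod.fst), phi (σ • e, lab R nn i e) ≤
      ph phi (coh (G := G) R nn B) V i σ := by
    rw [← Finset.sum_image (g := fun e => (σ • e, lab R nn i e)) (f := phi)
      (fun a _ b _ h => MulAction.injective σ (congrArg Prod.fst h))]
    refine sum_le_sum_of_subset_of_nonneg (fun y hy => ?_) fun y _ _ => by unfold phi; positivity
    obtain ⟨e, he, rfl⟩ := mem_image.1 hy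
    obtain ⟨he1, he2⟩ := mem_filter.1 he
    exact mem_sdiff.2 ⟨mem_image_of_mem _ he1, fun h => he2 (mem_image.2 ⟨_, h, rfl⟩)⟩
  refine le_trans ?_ (mul_le_mul_of_nonneg_left h1 (by positivity))
  rw [sum_filter, mul_sum]
  refine sum_le_sum fun e _ => ?_
  by_cases h : σ • e ∉ V.image Prod.fst
  · rw [ind_true h, if_pos h, mul_one]
    have e1 : phi (σ • e, lab R nn i e) = 4 ^ (i + 1 - nn e) / 8 := by
      simp only [phi, lab]
      rw [min_eq_left (by omega)]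
    have h2 : (4 : ℝ) ^ (i + 1) ≤ 4 ^ (i + 1 - nn e) * 4 ^ nn e := by
      rw [← pow_add]
      exact pow_le_pow_right₀ (by norm_num) (by omega)
    rw [e1, div_mul_div_comm, mul_comm (8 : ℝ), mul_div_mul_right _ _ (by norm_num : (8 : ℝ) ≠ 0),
      inv_eq_one_div, div_le_div_iff₀ (by positivity) (by positivity), one_mul]
    exact h2
  · rw [ind_false h, if_neg h]
    simp

end SelX

variable {G X : Type*} [Group G] [MulAction G X] [Fintype G] [Fintype X] [DecidableEq X]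

/-- selector theorem for a sparse set and dyadic masses -/
theorem sel {H : Finset X} {Q : ℝ} (hQ : 0 < Q) (hH : Sparse G H Q) (nn : X → ℕ) (R : ℕ)
    (hR : 1 ≤ R) (hhR : (H.card : ℝ) ≤ 4 ^ R) (d : X → ℝ) (hd : ∀ e ∈ H, d e ≤ (4 ^ nn e : ℝ)⁻¹)
    {I : Type*} [Fintype I] (Fam : I → Finset X) {g : ℝ} (hg : 0 ≤ g)
    (hlin : ∀ (σ : G) (lam : X → ℝ),
      ∑ e ∈ H, d e * lam (σ • e) ≤ g * ∑ ι, ∏ x ∈ Fam ι, Real.exp (lam x) - 1) (c0 : ℝ) :
    (∑ e ∈ H, d e) * c0 - Real.log 128 * (448 / 4096 * (∑ e ∈ H, (4 ^ nn e : ℝ)⁻¹ + 1)) ≤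
      g * ∑ ι, (Real.exp c0 * (2 ^ 27 * Real.exp 1 * Q)) ^ (Fam ι).card - 1 := by
  obtain ⟨B, hBH, hBd, hBc, hcl, hcard⟩ := exists_chain hQ hH nn R hR
  obtain ⟨pb, hpb⟩ : ∃ pb : ℝ, pb = 2 ^ 26 * Real.exp 1 * Q := ⟨_, rfl⟩
  have hpb0 : 0 < pb := by rw [hpb]; positivity
  have hex : ∃ j : ℕ, 1 ≤ 2 * (64 ^ j * pb) := by
    obtain ⟨j, hj⟩ := pow_unbounded_of_one_lt (pb⁻¹) (by norm_num : (1 : ℝ) < 64)
    refine ⟨j, ?_⟩
    rw [inv_lt_iff_one_lt_mul₀ hpb0] at hj
    linarith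
  let y : ℕ → ℝ := fun i =>
    ∑ e ∈ B i, (4 : ℝ) ^ (i + 1) / 4 ^ nn e + if i + 1 = R then (H.card : ℝ) else 0
  have hy1 : ∀ i, ∑ e ∈ B i, (4 : ℝ) ^ (i + 1) / 4 ^ nn e ≤ y i := fun i => by
    simp only [y]
    split_ifs
    · exact le_add_of_nonneg_right (Nat.cast_nonneg _)
    · simp
  have hy0 : ∀ i, 0 ≤ y i := fun i => le_trans (sum_nonneg fun e _ => by positivity) (hy1 i)
  obtain ⟨Yv, hY0, hY3, hYs, hYt⟩ := SelX.exists_Y y hy0
  have hBY : ∀ i < R, ((B i).card : ℝ) ≤ Yv i := by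
    intro i hi
    refine le_trans ?_ (hYs i)
    by_cases h : i + 1 = R
    · have h1 : ((B i).card : ℝ) ≤ H.card := by exact_mod_cast card_le_card (hBH i)
      have h2 : (H.card : ℝ) ≤ y i := by
        simp only [y, h, if_true]
        exact le_add_of_nonneg_left (sum_nonneg fun e _ => by positivity)
      exact h1.trans (h2.trans (single_le_sum (fun m _ => hy0 m) (self_mem_range_succ i)))
    · exact (hcard i (by omega)).trans (sum_le_sum fun m _ => hy1 m)
  let c : G → X → ℝ := fun σ x => ∑ e ∈ H, if σ • e = x then d e else 0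
  have hc : ∀ σ (lam : X → ℝ), ∑ x, c σ x * lam x = ∑ e ∈ H, d e * lam (σ • e) := by
    intro σ lam
    simp only [c, sum_mul]
    rw [sum_comm]
    refine sum_congr rfl fun e _ => ?_
    simp [ite_mul]
  have hsplit : ∀ u : X → ℝ, ∑ e ∈ H, u e = ∑ i ∈ range R, ∑ e ∈ B i, u e := by
    intro u
    rw [← sum_biUnion fun a _ b _ hab => hBd a b hab]
    congr 1
    ext e
    simp only [mem_biUnion, mem_range]
    exact ⟨hBc e, fun ⟨i, _, hi⟩ => hBH i hi⟩
  have main := core (X := X) (Y := X × Fin (R + 1)) (Ω := G) Prod.fst (coh R nn B)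
    (coh_dj R nn B hBd) phi (fun x => by unfold phi; positivity) R Yv hY0 (fun i _ => hY3 i)
    (fun i => 8 / 4 ^ (i + 1)) (fun i => by positivity) th (fun y => by unfold th; positivity)
    (SelX.th_sum R) hpb0 (δ := 1 / 4096) (by norm_num) (Nat.find hex) (Nat.find_spec hex)
    (fun j hj => by
      have h1 := not_le.1 (Nat.find_min hex hj)
      have h2 : 0 < 64 ^ j * pb := by positivity
      linarith)
    (fun j _ i hi => by
      refine SelX.DB_mono (db_of_closed hQ.le hi (hcl i hi) (s := 64 ^ j * pb)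
        (δ := 1 / 4096 / 8 ^ j) (by positivity) (by positivity) (le_of_eq ?_)) ?_
      · rw [hpb, show (64 : ℝ) = 8 ^ 2 by norm_num, ← pow_mul, mul_comm 2 j, pow_mul]
        field_simp
        norm_num
      · exact mul_le_mul_of_nonneg_left (hBY i hi) (by positivity))
    c Fam hg (fun σ lam => by rw [hc]; exact hlin σ lam)
    (fun σ V => by
      rw [hc σ fun x => ind (x ∉ V.image Prod.fst)]
      refine le_trans (sum_le_sum fun e he =>
        mul_le_mul_of_nonneg_right (hd e he) (ind_nonneg _)) ?_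
      rw [hsplit]
      exact sum_le_sum fun i hi => SelX.mass nn B (mem_range.1 hi) σ V)
    (k := ∑ e ∈ H, d e) (fun σ => by simpa using hc σ fun _ => 1) c0
  have e1 : 2 * pb = 2 ^ 27 * Real.exp 1 * Q := by rw [hpb]; ring
  rw [e1] at main
  refine le_trans (sub_le_sub_left (mul_le_mul_of_nonneg_left ?_
    (Real.log_nonneg (by norm_num))) _) main
  have h1 : ∑ i ∈ range R, 8 / 4 ^ (i + 1) * Yv i = 8 * ∑ i ∈ range R, Yv i / 4 ^ (i + 1) := by
    rw [mul_sum]
    exact sum_congr rfl fun i _ => by ring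
  have h2 : ∑ i ∈ range R, y i / 4 ^ (i + 1) ≤ ∑ e ∈ H, (4 ^ nn e : ℝ)⁻¹ + 1 := by
    have h3 : ∀ i, y i / 4 ^ (i + 1) = ∑ e ∈ B i, (4 ^ nn e : ℝ)⁻¹ +
        if i = R - 1 then (H.card : ℝ) / 4 ^ R else 0 := by
      intro i
      simp only [y, add_div, sum_div]
      congr 1
      · exact sum_congr rfl fun e _ => by field_simp
      · by_cases h : i + 1 = R
        · rw [if_pos h, if_pos (by omega), h]
        · rw [if_neg h, if_neg (by omega), zero_div]
    simp only [h3, sum_add_distrib]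
    rw [← hsplit, sum_ite_eq', if_pos (mem_range.2 (by omega))]
    have : (H.card : ℝ) / 4 ^ R ≤ 1 := (div_le_one (by positivity)).2 hhR
    linarith
  have h4 := hYt R
  rw [h1]
  linarith

end Crest.Agent.R55
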