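import Crest.Agent.R55.Key

set_option autoImplicit false
open Finset

namespace Crest.Agent.R55

variable {Y Ω : Type*} [Fintype Y] [DecidableEq Y] [Fintype Ω] {S : ℕ → Ω → Finset Y}
  {V : Finset Y} {ρ : ℕ → Ω → ℝ} {p φ : Y → ℝ}

namespace StepAux

lemma sum_half (R : ℕ) (Yv : ℕ → ℝ) (hY0 : ∀ i, 0 ≤ Yv i)
    (hY : ∀ i, i + 1 < R → 3 * Yv i ≤ Yv (i + 1)) :
    ∀ i < R, ∑ m ∈ range i, Yv m ≤ Yv i / 2 := by
  intro i
  induction i with
  | zero => intro _; simp only [range_zero, sum_empty]; have := hY0 0; linarith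
  | succ i ih =>
    intro hi
    rw [sum_range_succ]
    have h1 := ih (by omega)
    have h2 := hY i hi
    linarith

/-- averaged domination -/
lemma dom_ex (hp : Pr p) {ρ' : Finset Y → ℕ → Ω → ℝ} {P : Finset Y → Ω → ℝ} {i : ℕ} {G : ℝ}
    (hdom : ∀ w, Dom S (ρ' w) (P w) i G) (g : Finset Y → Ω → ℝ)
    (hg : ∀ w, Meas S (i + 1) (g w)) :
    Ex p (fun w => ∑ σ, P w σ * g w σ) ≤
      G + Ex p (fun w => av (fun σ => (∏ m ∈ range (i + 1), ρ' w m σ) * Real.exp (g w σ))) - 1 := by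
  have h1 : Ex p (fun w => ∑ σ, P w σ * g w σ) ≤ Ex p (fun w => G +
      av (fun σ => (∏ m ∈ range (i + 1), ρ' w m σ) * Real.exp (g w σ)) - 1) :=
    Ex_mono (fun x => (hp x).1.le) (fun x => (hp x).2) fun w => hdom w (g w) (hg w)
  rw [Ex_sub, Ex_add, Ex_const, Ex_const] at h1
  exact h1

/-- linearity -/
lemma ex_lin (P : Finset Y → Ω → ℝ) (hP1 : ∀ w, ∑ σ, P w σ = 1) (f : Finset Y → Ω → ℝ)
    (u v : Finset Y → ℕ → Ω → ℝ) (D : ℕ → ℝ) (k : ℕ) :
    Ex p (fun w => ∑ σ, P w σ * (f w σ + ∑ m ∈ range k, (u w m σ - v w m σ - D m))) =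
      Ex p (fun w => ∑ σ, P w σ * f w σ) +
        ∑ m ∈ range k, (Ex p (fun w => ∑ σ, P w σ * u w m σ) -
          Ex p (fun w => ∑ σ, P w σ * v w m σ) - D m) := by
  have h1 : ∀ w, ∑ σ, P w σ * (f w σ + ∑ m ∈ range k, (u w m σ - v w m σ - D m)) =
      ∑ σ, P w σ * f w σ + ∑ m ∈ range k,
        (∑ σ, P w σ * u w m σ - ∑ σ, P w σ * v w m σ - D m) := by
    intro w
    have h2 : ∀ m, ∑ σ, P w σ * u w m σ - ∑ σ, P w σ * v w m σ - D m =
        ∑ σ, P w σ * (u w m σ - v w m σ - D m) := by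
      intro m
      simp only [mul_sub, sum_sub_distrib]
      rw [← sum_mul, hP1, one_mul]
    simp only [h2]
    rw [sum_comm, ← sum_add_distrib]
    refine sum_congr rfl fun σ _ => ?_
    rw [mul_add, mul_sum]
  rw [funext h1, Ex_add, Ex_sum p (range k) (fun m w =>
    ∑ σ, P w σ * u w m σ - ∑ σ, P w σ * v w m σ - D m)]
  congr 1
  refine sum_congr rfl fun m _ => ?_
  rw [Ex_sub, Ex_sub, Ex_const]

omit [Fintype Y] in
lemma meas_comb (w : Finset Y) (D : ℕ → ℝ) {i k : ℕ} (hk : k ≤ i + 1) {f : Ω → ℝ}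
    (hf : Meas S (i + 1) f) :
    Meas S (i + 1) (fun σ => f σ +
      ∑ m ∈ range k, (ph φ S (V ∪ w) m σ - aa p S V ρ w m σ - D m)) := by
  intro σ τ hστ
  have h1 := hf σ τ hστ
  simp only
  rw [h1]
  congr 1
  refine sum_congr rfl fun m hm => ?_
  have hm' : m + 1 ≤ i + 1 := by have := mem_range.1 hm; omega
  rw [(meas_ph (S := S) φ (V ∪ w) m).mono hm' σ τ hστ,
    (meas_aa (S := S) (V := V) (ρ := ρ) p w m).mono hm' σ τ hστ]

end StepAux

/-- one resampling level -/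
theorem level_step [Nonempty Ω] (hp : Pr p) (hφ : ∀ x, 0 ≤ φ x) (hS : Dj S) (h : St S V ρ)
    (R : ℕ) (Yv : ℕ → ℝ) (hY0 : ∀ i, 0 ≤ Yv i) (hY : ∀ i, i + 1 < R → 3 * Yv i ≤ Yv (i + 1))
    {δ : ℝ} (hδ : 0 ≤ δ) (hD : ∀ i < R, DB p φ S i (2 * δ * Yv i))
    (P : Finset Y → Ω → ℝ) (hP0 : ∀ w σ, 0 ≤ P w σ) (hP1 : ∀ w, ∑ σ, P w σ = 1)
    (hdom : ∀ w, ∀ i < R, Dom S (nrho p S V ρ w) (P w) i (12 * (δ / 8) * Yv i)) :
    ∀ i < R, Dom S ρ (fun σ => Ex p (fun w => P w σ)) i (12 * δ * Yv i) ∧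
      Ex p (fun w => ∑ σ, P w σ * ph φ S (V ∪ w) i σ) ≤ 12 * δ * Yv i := by
  set D : ℕ → ℝ := fun m => 2 * δ * Yv m with hDdef
  set z : ℕ → ℝ := fun m => Ex p (fun w => ∑ σ, P w σ * aa p S V ρ w m σ) with hz
  set Φ : ℕ → ℝ := fun m => Ex p (fun w => ∑ σ, P w σ * ph φ S (V ∪ w) m σ) with hΦ
  have hΦ0 : ∀ m, 0 ≤ Φ m := fun m =>
    Ex_nonneg (fun x => (hp x).1.le) (fun x => (hp x).2) fun w =>
      sum_nonneg fun σ _ => mul_nonneg (hP0 w σ) (sum_nonneg fun x _ => hφ x)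
  have hhalf := StepAux.sum_half R Yv hY0 hY
  have hA : ∀ i < R, z i + ∑ m ∈ range i, (Φ m - z m - D m) ≤ 12 * (δ / 8) * Yv i := by
    intro i hi
    have h1 := StepAux.dom_ex (S := S) hp (fun w => hdom w i hi)
      (fun w σ => aa p S V ρ w i σ +
        ∑ m ∈ range i, (ph φ S (V ∪ w) m σ - aa p S V ρ w m σ - D m))
      (fun w => StepAux.meas_comb w D (Nat.le_succ i) (meas_aa p w i))
    have h2 := keyA (φ := φ) hp hS h D i (fun m hm => hD m (by omega))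
    rw [StepAux.ex_lin P hP1 (fun w σ => aa p S V ρ w i σ) (fun w m σ => ph φ S (V ∪ w) m σ)
      (fun w m σ => aa p S V ρ w m σ) D i] at h1
    linarith
  have hzD : ∀ i < R, z i + D i ≤ 7 * δ * Yv i := by
    intro i
    induction i using Nat.strong_induction_on with
    | _ i ih =>
      intro hi
      have h1 := hA i hi
      have h2 : -(7 * δ * ∑ m ∈ range i, Yv m) ≤ ∑ m ∈ range i, (Φ m - z m - D m) := by
        rw [mul_sum, ← sum_neg_distrib]
        refine sum_le_sum fun m hm => ?_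
        have hm' := mem_range.1 hm
        have := ih m hm' (by omega)
        have := hΦ0 m
        linarith
      have h3 := mul_le_mul_of_nonneg_left (hhalf i hi) (by positivity : 0 ≤ 7 * δ)
      have h4 : D i = 2 * δ * Yv i := rfl
      nlinarith
  have hB : ∀ i < R, ∀ f : Ω → ℝ, Meas S (i + 1) f →
      ∑ σ, Ex p (fun w => P w σ) * f σ + Φ i ≤ 12 * δ * Yv i +
        av (fun σ => (∏ m ∈ range (i + 1), ρ m σ) * Real.exp (f σ)) - 1 := by
    intro i hi f hf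
    have h1 := StepAux.dom_ex (S := S) hp (fun w => hdom w i hi)
      (fun w σ => f σ +
        ∑ m ∈ range (i + 1), (ph φ S (V ∪ w) m σ - aa p S V ρ w m σ - D m))
      (fun w => StepAux.meas_comb w D le_rfl hf)
    have h2 := keyB (φ := φ) hp hS h D (i + 1) (fun m hm => hD m (by omega)) f
    rw [StepAux.ex_lin P hP1 (fun _ σ => f σ) (fun w m σ => ph φ S (V ∪ w) m σ)
      (fun w m σ => aa p S V ρ w m σ) D (i + 1)] at h1
    have h5 : Ex p (fun w => ∑ σ, P w σ * f σ) = ∑ σ, Ex p (fun w => P w σ) * f σ := by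
      rw [Ex_sum]
      exact sum_congr rfl fun σ _ => Ex_mul_const p (f σ) (fun w => P w σ)
    have h3 : Φ i - 7 * δ * ∑ m ∈ range (i + 1), Yv m ≤
        ∑ m ∈ range (i + 1), (Φ m - z m - D m) := by
      have h6 : Φ i ≤ ∑ m ∈ range (i + 1), Φ m :=
        single_le_sum (f := Φ) (fun m _ => hΦ0 m) (self_mem_range_succ i)
      have h7 : ∑ m ∈ range (i + 1), Φ m - 7 * δ * ∑ m ∈ range (i + 1), Yv m ≤
          ∑ m ∈ range (i + 1), (Φ m - z m - D m) := by
        rw [mul_sum, ← sum_sub_distrib]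
        refine sum_le_sum fun m hm => ?_
        have hm' := mem_range.1 hm
        have := hzD m (by omega)
        linarith
      linarith
    have h8 : ∑ m ∈ range (i + 1), Yv m ≤ 3 / 2 * Yv i := by
      rw [sum_range_succ]; have := hhalf i hi; linarith
    have h9 := mul_le_mul_of_nonneg_left h8 (by positivity : 0 ≤ 7 * δ)
    rw [h5] at h1
    nlinarith
  intro i hi
  refine ⟨fun f hf => ?_, ?_⟩
  · have := hB i hi f hf
    have := hΦ0 i
    linarith
  · have h1 := hB i hi (fun _ => 0) (fun _ _ _ => rfl)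
    simp only [mul_zero, sum_const_zero, Real.exp_zero, mul_one, zero_add] at h1
    rw [h.av_prod] at h1
    change Φ i ≤ _
    linarith

end Crest.Agent.R55
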