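import Crest.Agent.R55.Res

set_option autoImplicit false
open Finset

namespace Crest.Agent.R55

variable {Y Ω : Type*} [DecidableEq Y] [Fintype Ω] {S : ℕ → Ω → Finset Y}

lemma mem_cls {i : ℕ} {σ τ : Ω} : τ ∈ cls S i σ ↔ ∀ m < i, S m τ = S m σ := by
  simp [cls]

lemma self_mem_cls (i : ℕ) (σ : Ω) : σ ∈ cls S i σ := by
  exact mem_cls.2 fun _ _ => rfl

lemma cls_eq {i : ℕ} {σ τ : Ω} (h : ∀ m < i, S m τ = S m σ) : cls S i τ = cls S i σ := by
  ext x
  simp only [mem_cls]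
  exact ⟨fun hx m hm => (hx m hm).trans (h m hm), fun hx m hm => (hx m hm).trans (h m hm).symm⟩

omit [DecidableEq Y] [Fintype Ω] in
lemma Meas.mono {i j : ℕ} {f : Ω → ℝ} (h : Meas S i f) (hij : i ≤ j) : Meas S j f := by
  exact fun σ τ hστ => h σ τ fun m hm => hστ m (lt_of_lt_of_le hm hij)

lemma psi0_nonneg (i : ℕ) (σ : Ω) (U : Finset Y) : 0 ≤ psi0 S i σ U := by
  exact psi_nonneg (fun _ _ => inv_nonneg.2 (Nat.cast_nonneg _)) U

/-- tower property -/
lemma tower {i : ℕ} {F : Ω → ℝ} (hF : Meas S i F) (u : Ω → ℝ) :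
    av (fun σ => F σ * u σ) = av (fun σ => F σ * cav S i σ u) := by
  unfold av cav
  congr 1
  simp only [mul_sum]
  rw [sum_comm' (s' := fun τ => cls S i τ) (t' := univ)]
  · refine sum_congr rfl fun τ _ => ?_
    have hc : ((cls S i τ).card : ℝ) ≠ 0 :=
      Nat.cast_ne_zero.2 (card_ne_zero.2 ⟨τ, self_mem_cls i τ⟩)
    rw [sum_congr rfl (g := fun _ => F τ * (((cls S i τ).card : ℝ)⁻¹ * u τ))]
    · rw [sum_const, nsmul_eq_mul]
      field_simp
    · intro σ hσ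
      rw [cls_eq (mem_cls.1 hσ), hF τ σ (mem_cls.1 hσ)]
  · intro σ τ
    simp only [mem_univ, true_and, and_true, mem_cls]
    exact ⟨fun h m hm => (h m hm).symm, fun h m hm => (h m hm).symm⟩

lemma St.av_prod [Nonempty Ω] {V : Finset Y} {ρ : ℕ → Ω → ℝ} (h : St S V ρ) (i : ℕ) :
    av (fun σ => ∏ m ∈ range i, ρ m σ) = 1 := by
  induction i with
  | zero =>
    have hc : (Fintype.card Ω : ℝ) ≠ 0 := Nat.cast_ne_zero.2 Fintype.card_ne_zero
    simp [av, hc]
  | succ i ih =>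
    have hm : Meas S i (fun σ => ∏ m ∈ range i, ρ m σ) := fun σ τ hστ =>
      prod_congr rfl fun m hm => (h.meas m).mono (Nat.succ_le_of_lt (mem_range.1 hm)) σ τ hστ
    have ht := tower hm (ρ i)
    simp only [h.one, mul_one] at ht
    simp only [prod_range_succ]
    rw [ht, ih]

lemma St.av_prod_mul {V : Finset Y} {ρ : ℕ → Ω → ℝ} (h : St S V ρ) {i j : ℕ} (hij : i ≤ j)
    {f : Ω → ℝ} (hf : Meas S i f) :
    av (fun σ => (∏ m ∈ range j, ρ m σ) * f σ) = av (fun σ => (∏ m ∈ range i, ρ m σ) * f σ) := by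
  induction j, hij using Nat.le_induction with
  | base => rfl
  | succ j hij ih =>
    have hm : Meas S j (fun σ => (∏ m ∈ range j, ρ m σ) * f σ) := fun σ τ hστ => by
      have e1 : ∏ m ∈ range j, ρ m τ = ∏ m ∈ range j, ρ m σ :=
        prod_congr rfl fun m hm => (h.meas m).mono (Nat.succ_le_of_lt (mem_range.1 hm)) σ τ hστ
      show (∏ m ∈ range j, ρ m τ) * f τ = (∏ m ∈ range j, ρ m σ) * f σ
      rw [e1, hf.mono hij σ τ hστ]
    have ht := tower hm (ρ j)
    simp only [h.one, mul_one] at ht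
    rw [← ih, ← ht]
    congr 1
    funext σ
    rw [prod_range_succ]
    ring

/-- the initial state -/
lemma St.init : St S ∅ (fun _ _ => 1) := by
  refine ⟨fun _ _ => zero_le_one, fun _ _ _ _ => rfl, fun i σ => ?_, fun i σ U => ?_⟩
  · have hc : ((cls S i σ).card : ℝ) ≠ 0 :=
      Nat.cast_ne_zero.2 (card_ne_zero.2 ⟨σ, self_mem_cls i σ⟩)
    simp [cav, hc]
  · apply le_of_eq
    simp [psi0, psi, kap]

/-- the state after one resampling level -/
lemma St.step {V : Finset Y} {ρ : ℕ → Ω → ℝ} (h : St S V ρ) {p : Y → ℝ} (hp : Pr p)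
    (w : Finset Y) : St S (V ∪ w) (nrho p S V ρ w) := by
  have hk : ∀ i σ, ∀ τ ∈ cls S i σ, 0 ≤ kap S ρ i σ τ := fun i σ τ _ =>
    mul_nonneg (inv_nonneg.2 (Nat.cast_nonneg _)) (h.nn i τ)
  have hnr : ∀ i σ, ∀ τ ∈ cls S i σ, nr p S V ρ w i τ =
      rr p (cls S i σ) (kap S ρ i σ) (fun τ => S i τ \ V) (S i τ \ V) w := fun i σ τ hτ => by
    have e := cls_eq (mem_cls.1 hτ)
    have e2 : kap S ρ i τ = kap S ρ i σ := by
      funext x
      simp only [kap, e]
    simp only [nr, e, e2]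
  refine ⟨fun i σ => mul_nonneg (h.nn i σ) (rr_nonneg hp (hk i σ) _ _), fun i σ τ hστ => ?_,
    fun i σ => ?_, fun i σ U => ?_⟩
  · have hτ : τ ∈ cls S i σ := mem_cls.2 fun m hm => hστ m (Nat.lt_succ_of_lt hm)
    simp only [nrho]
    rw [h.meas i σ τ hστ, hnr i σ τ hτ, hστ i (Nat.lt_succ_self i)]
    rfl
  · have h1 := sum_rr (t := fun τ => S i τ \ V) hp (hk i σ) w
    have h2 := h.one i σ
    unfold cav at h2 ⊢
    rw [← h2]
    refine Eq.trans (sum_congr rfl fun τ hτ => ?_) h1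
    simp only [nrho, hnr i σ τ hτ, kap]
    ring
  · have h1 := psi_rr (t := fun τ => S i τ \ V) hp (hk i σ) w U
    refine le_trans (le_of_eq ?_) (h1.trans (h.spr i σ U))
    unfold psi
    refine sum_congr rfl fun τ hτ => ?_
    have e : S i τ \ (V ∪ w) = (S i τ \ V) \ w := by
      ext x
      simp only [mem_sdiff, mem_union, not_or, and_assoc]
    simp only [e]
    congr 1
    rw [← hnr i σ τ hτ]
    simp only [kap, nrho]
    ring

/-- with no further level the chain law is dominated with budget `G ≥ 0` -/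
lemma St.dom_base [Nonempty Ω] {V : Finset Y} {ρ : ℕ → Ω → ℝ} (h : St S V ρ) {R i : ℕ}
    (hi : i < R) {G : ℝ} (hG : 0 ≤ G) :
    Dom S ρ (fun σ => (Fintype.card Ω : ℝ)⁻¹ * ∏ m ∈ range R, ρ m σ) i G := by
  intro f hf
  have h1 := h.av_prod_mul (Nat.succ_le_of_lt hi) hf
  have h2 := h.av_prod (i + 1)
  have e : ∑ σ, ((Fintype.card Ω : ℝ)⁻¹ * ∏ m ∈ range R, ρ m σ) * f σ =
      av (fun σ => (∏ m ∈ range R, ρ m σ) * f σ) := by
    simp only [av, mul_sum, mul_assoc]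
  rw [e, h1]
  have h3 : av (fun σ => (∏ m ∈ range (i + 1), ρ m σ) * f σ) +
      av (fun σ => ∏ m ∈ range (i + 1), ρ m σ) ≤
      av (fun σ => (∏ m ∈ range (i + 1), ρ m σ) * Real.exp (f σ)) := by
    unfold av
    rw [← mul_add, ← sum_add_distrib]
    refine mul_le_mul_of_nonneg_left (sum_le_sum fun σ _ => ?_)
      (inv_nonneg.2 (Nat.cast_nonneg _))
    have hn : 0 ≤ ∏ m ∈ range (i + 1), ρ m σ := prod_nonneg fun m _ => h.nn m σ
    have := mul_le_mul_of_nonneg_left (Real.add_one_le_exp (f σ)) hn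
    linarith
  simp only [Nat.succ_eq_add_one] at *
  linarith

lemma meas_aa {V : Finset Y} {ρ : ℕ → Ω → ℝ} (p : Y → ℝ) (w : Finset Y) (i : ℕ) :
    Meas S (i + 1) (aa p S V ρ w i) := by
  intro σ τ hστ
  have e := cls_eq (S := S) (i := i) (σ := σ) (τ := τ) fun m hm => hστ m (Nat.lt_succ_of_lt hm)
  have e2 : kap S ρ i τ = kap S ρ i σ := by
    funext x
    simp only [kap, e]
  have e3 := hστ i (Nat.lt_succ_self i)
  simp only [aa, nr, rb, psi0, e, e2, e3]

omit [Fintype Ω] in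
lemma meas_ph (φ : Y → ℝ) (V : Finset Y) (i : ℕ) : Meas S (i + 1) (ph φ S V i) := by
  intro σ τ hστ
  simp only [ph, hστ i (Nat.lt_succ_self i)]

end Crest.Agent.R55
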